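import Mathlib

/-!
# P030, route N: frames from flat matrices, pointwise algebra (helper265)

`P` = the matrix of the adapted flat basis (rows `e, a, c, d, h, d+g, A0, A3` in the coordinates
`y`), `B` = the constants of a cell.  `frm P B` = the unitriangular frame.
-/

open Matrix

namespace Vale.Agent.P030.H265

/-- rows `0..5` lead at their own coordinate, rows `6, 7` live on the last two coordinates -/
def Adap (P : Matrix (Fin 8) (Fin 8) ℂ) : Prop :=
  (∀ i j : Fin 8, i < 6 → j < i → P i j = 0) ∧ (∀ i : Fin 8, i < 6 → P i i = 1) ∧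
  (∀ j : Fin 8, j < 6 → P 6 j = 0) ∧ (∀ j : Fin 8, j < 6 → P 7 j = 0)

/-- the constants of a cell: rows `0..5` unitriangular, row `6` = the `K`-vector -/
def Cst (B : Matrix (Fin 8) (Fin 8) ℂ) : Prop :=
  (∀ i j : Fin 8, i < 6 → j < i → B i j = 0) ∧ (∀ i : Fin 8, i < 6 → B i i = 1) ∧
  (∀ j : Fin 8, j < 6 → B 6 j = 0)

/-- the `F` and `T` coordinates of the `K`-vector -/
def kF (P : Matrix (Fin 8) (Fin 8) ℂ) (α β : ℂ) : ℂ := α * P 6 6 + β * P 7 6
def kT (P : Matrix (Fin 8) (Fin 8) ℂ) (α β : ℂ) : ℂ := α * P 6 7 + β * P 7 7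

/-- the frame -/
noncomputable def frm (P B : Matrix (Fin 8) (Fin 8) ℂ) : Matrix (Fin 8) (Fin 8) ℂ := fun b =>
  if b = 7 then Pi.single 7 1
  else if b = 6 then Pi.single 6 1 + (kT P (B 6 6) (B 6 7) / kF P (B 6 6) (B 6 7)) • Pi.single 7 1
  else fun c => ∑ i, B b i * P i c

theorem frm_lt {P B : Matrix (Fin 8) (Fin 8) ℂ} {b : Fin 8} (hb : b < 6) (c : Fin 8) :
    frm P B b c = ∑ i, B b i * P i c := by
  have h1 : b ≠ 7 := by rintro rfl; exact absurd hb (by decide)
  have h2 : b ≠ 6 := by rintro rfl; exact absurd hb (by decide)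
  simp [frm, h1, h2]

theorem frm_six (P B : Matrix (Fin 8) (Fin 8) ℂ) :
    frm P B 6 = Pi.single 6 1 +
      (kT P (B 6 6) (B 6 7) / kF P (B 6 6) (B 6 7)) • Pi.single 7 1 := by
  have h : (6 : Fin 8) ≠ 7 := by decide
  simp [frm, h]

theorem frm_seven (P B : Matrix (Fin 8) (Fin 8) ℂ) : frm P B 7 = Pi.single 7 1 := by
  simp [frm]

/-- the frame is unitriangular -/
theorem frm_unitri {P B : Matrix (Fin 8) (Fin 8) ℂ} (hP : Adap P) (hB : Cst B) :
    (∀ b c, c < b → frm P B b c = 0) ∧ ∀ b, frm P B b b = 1 := by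
  obtain ⟨p1, p2, p3, p4⟩ := hP
  obtain ⟨b1, b2, b3⟩ := hB
  have hlow : ∀ b c : Fin 8, b < 6 → c < b → ∀ i, B b i * P i c = 0 := by
    intro b c hb hcb i
    by_cases hi : i < b
    · rw [b1 b i hb hi, zero_mul]
    · have hc6 : c < 6 := lt_trans hcb hb
      have hci : c < i := lt_of_lt_of_le hcb (not_lt.1 hi)
      by_cases hi6 : i < 6
      · rw [p1 i c hi6 hci, mul_zero]
      · have : i = 6 ∨ i = 7 := by omega
        rcases this with rfl | rfl
        · rw [p3 c hc6, mul_zero]
        · rw [p4 c hc6, mul_zero]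
  constructor
  · intro b c hcb
    by_cases hb : b < 6
    · rw [frm_lt hb]
      exact Finset.sum_eq_zero fun i _ => hlow b c hb hcb i
    · have : b = 6 ∨ b = 7 := by omega
      rcases this with rfl | rfl
      · rw [frm_six]
        have h6 : c ≠ 6 := hcb.ne
        have h7 : c ≠ 7 := by rintro rfl; exact absurd hcb (by decide)
        simp [h6, h7]
      · rw [frm_seven]
        exact Pi.single_eq_of_ne hcb.ne _
  · intro b
    by_cases hb : b < 6
    · rw [frm_lt hb, Finset.sum_eq_single b]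
      · rw [b2 b hb, p2 b hb, mul_one]
      · intro i _ hib
        rcases lt_or_gt_of_ne hib with h | h
        · rw [b1 b i hb h, zero_mul]
        · by_cases hi6 : i < 6
          · rw [p1 i b hi6 h, mul_zero]
          · have : i = 6 ∨ i = 7 := by omega
            rcases this with rfl | rfl
            · rw [p3 b hb, mul_zero]
            · rw [p4 b hb, mul_zero]
      · intro h; exact absurd (Finset.mem_univ _) h
    · have : b = 6 ∨ b = 7 := by omega
      rcases this with rfl | rfl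
      · rw [frm_six]
        have h : (6 : Fin 8) ≠ 7 := by decide
        simp [h]
      · rw [frm_seven]; simp

/-- uniqueness of the expansion in a unitriangular frame -/
theorem expand_unique {S : Matrix (Fin 8) (Fin 8) ℂ} (hS : IsUnit S.det) {v t : Fin 8 → ℂ}
    (h : v = t ᵥ* S) : v ᵥ* S⁻¹ = t := by
  rw [h, Matrix.vecMul_vecMul, Matrix.mul_nonsing_inv _ hS, Matrix.vecMul_one]

/-- the coordinates of a flat vector `Σ β_i P_i`, `β = M B' + ρ` on the first six coordinates -/
noncomputable def coo (P B' : Matrix (Fin 8) (Fin 8) ℂ) (M : Fin 8 → ℂ) (ρ6 ρ7 : ℂ) :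
    Fin 8 → ℂ := fun c =>
  if c = 7 then kT P ρ6 ρ7 - kF P ρ6 ρ7 * (kT P (B' 6 6) (B' 6 7) / kF P (B' 6 6) (B' 6 7))
  else if c = 6 then kF P ρ6 ρ7 else M c

/-- expansion of a flat vector in the frame -/
theorem expand_flat {P B' : Matrix (Fin 8) (Fin 8) ℂ} (hP : Adap P) {β M : Fin 8 → ℂ}
    {ρ6 ρ7 : ℂ}
    (h : ∀ i : Fin 8, i < 6 → β i = ∑ c : Fin 8, if c < 6 then M c * B' c i else 0)
    (h6 : β 6 = (∑ c : Fin 8, if c < 6 then M c * B' c 6 else 0) + ρ6)
    (h7 : β 7 = (∑ c : Fin 8, if c < 6 then M c * B' c 7 else 0) + ρ7) :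
    (fun j => ∑ i, β i * P i j) = coo P B' M ρ6 ρ7 ᵥ* frm P B' := by
  obtain ⟨p1, p2, p3, p4⟩ := hP
  -- the K part
  have hK : ∀ j : Fin 8, ρ6 * P 6 j + ρ7 * P 7 j =
      kF P ρ6 ρ7 * frm P B' 6 j +
        (kT P ρ6 ρ7 - kF P ρ6 ρ7 * (kT P (B' 6 6) (B' 6 7) / kF P (B' 6 6) (B' 6 7))) *
          frm P B' 7 j := by
    intro j
    rw [frm_six, frm_seven]
    by_cases hj : j < 6
    · have h6' : j ≠ 6 := hj.ne
      have h7' : j ≠ 7 := by rintro rfl; exact absurd hj (by decide)
      rw [p3 j hj, p4 j hj]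
      simp [h6', h7']
    · have : j = 6 ∨ j = 7 := by omega
      have h67 : (6 : Fin 8) ≠ 7 := by decide
      rcases this with rfl | rfl
      · simp [kF, h67]
      · simp [kF, kT, h67.symm]
  funext j
  have e1 : ∀ i : Fin 8, β i * P i j = (∑ c : Fin 8, if c < 6 then M c * (B' c i * P i j) else 0) +
      ((if i = 6 then ρ6 * P 6 j else 0) + if i = 7 then ρ7 * P 7 j else 0) := by
    intro i
    have e2 : ∀ c : Fin 8, (if c < 6 then M c * (B' c i * P i j) else 0) =
        (if c < 6 then M c * B' c i else 0) * P i j := by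
      intro c; split_ifs <;> ring
    rw [Finset.sum_congr rfl fun c _ => e2 c, ← Finset.sum_mul]
    by_cases hi : i < 6
    · have h6' : i ≠ 6 := hi.ne
      have h7' : i ≠ 7 := by rintro rfl; exact absurd hi (by decide)
      rw [h i hi, if_neg h6', if_neg h7']; ring
    · have : i = 6 ∨ i = 7 := by omega
      have h67 : (6 : Fin 8) ≠ 7 := by decide
      rcases this with rfl | rfl
      · rw [h6, if_pos rfl, if_neg h67]; ring
      · rw [h7, if_neg h67.symm, if_pos rfl]; ring
  rw [Finset.sum_congr rfl fun i _ => e1 i, Finset.sum_add_distrib, Finset.sum_comm,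
    Finset.sum_add_distrib, Finset.sum_ite_eq' , Finset.sum_ite_eq']
  simp only [Finset.mem_univ, if_true]
  rw [hK j]
  have inner : ∀ c : Fin 8, (∑ i : Fin 8, if c < 6 then M c * (B' c i * P i j) else 0) =
      if c < 6 then M c * frm P B' c j else 0 := by
    intro c
    by_cases hc : c < 6
    · rw [if_pos hc, frm_lt hc, Finset.mul_sum]
      exact Finset.sum_congr rfl fun i _ => by rw [if_pos hc]
    · rw [if_neg hc]
      exact Finset.sum_eq_zero fun i _ => if_neg hc
  rw [Finset.sum_congr rfl fun c _ => inner c]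
  have outer : ∀ c : Fin 8, coo P B' M ρ6 ρ7 c * frm P B' c j =
      (if c < 6 then M c * frm P B' c j else 0) +
      ((if c = 6 then kF P ρ6 ρ7 * frm P B' 6 j else 0) +
        if c = 7 then (kT P ρ6 ρ7 - kF P ρ6 ρ7 * (kT P (B' 6 6) (B' 6 7) /
          kF P (B' 6 6) (B' 6 7))) * frm P B' 7 j else 0) := by
    intro c
    by_cases hc : c < 6
    · have h6' : c ≠ 6 := hc.ne
      have h7' : c ≠ 7 := by rintro rfl; exact absurd hc (by decide)
      simp [coo, h6', h7', hc]
    · have : c = 6 ∨ c = 7 := by omega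
      have h67 : (6 : Fin 8) ≠ 7 := by decide
      rcases this with rfl | rfl
      · simp [coo, h67]
      · simp [coo, h67.symm]
  simp only [Matrix.vecMul, dotProduct]
  rw [Finset.sum_congr rfl fun c _ => outer c, Finset.sum_add_distrib, Finset.sum_add_distrib,
    Finset.sum_ite_eq', Finset.sum_ite_eq']
  simp only [Finset.mem_univ, if_true]

end Vale.Agent.P030.H265
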