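import Vale.Agent.P030.H580.Vgl
import Vale.Agent.P030.AR.Flat
import Vale.Agent.P030.H3.KPosV
import Vale.Agent.P030.H265.FrameAlg

/-!
# P030, route N: the adapted flat matrix in the `S`-plane (helper265)

`S`-plane: `y = 1 - 2 z`; `OmP` = upper half plane and the four full vertical strips over the real
intervals.  `Pz X z` = rows `e, a, c, d, h, d+g, A0/π, A3/π` in the coordinates
`x0, x1, x2, x3 - x4, x5, x4, x6, x7`.
-/

open Set Filter Topology Matrix
open scoped ComplexConjugate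

namespace Vale.Agent.P030.H265

open Vale.Agent.P030.AR Vale.Agent.P030.H580 Vale.Agent.P030.T

noncomputable section

/-- the flat vectors in the `y`-plane, all that is used -/
structure YD (X : Fin 8 → ℂ → Fin 8 → ℂ) : Prop where
  diff : ∀ i j, DifferentiableOn ℂ (fun y => X i y j) OmY
  cusp : ∀ c i y, y ∈ RY c → X i y = glc c (TY c y) (tY c y) i
  refl : ∀ (q : Fin 4) (i j : Fin 8) (y : ℂ), 0 ≤ y.im → y.re ∈ Jv q →
    X i y j = ∑ k, conj (Rf q i k) * conj (X k (conj y) j)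
  kpos : ∀ y : ℂ, (y.im < 0 ∨ (y.im = 0 ∧ y.re ≠ -1 ∧ y.re ≠ 0 ∧ y.re ≠ 1)) →
    0 < (X 7 y 6 * conj (X 6 y 6)).re

theorem exists_YD (hR : RefV) {V : Fin 8 → ℂ → Fin 8 → ℂ} (hV : IsV V) :
    ∃ X, YD X ∧ ∀ i, ∀ y : ℂ, y.im < 0 → X i y = V i (uy y) := by
  choose W hW using hR V hV
  refine ⟨Vy V W, ⟨fun i j => Vy_differentiableOn hV hW i j, fun c i y hy => Vy_gl hV hW c i hy,
    fun q i j y h1 h2 => Vy_refl hV hW i j h1 h2, ?_⟩, fun i y hy => Vy_low i hy⟩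
  rintro y (h | ⟨h0, h1, h2, h3⟩)
  · rw [Vy_low 7 h, Vy_low 6 h]
    exact H3.KPos.V_pos hV (uy_im_pos h)
  · obtain ⟨q, hq⟩ := exists_Jv h1 h2 h3
    have hy : y = ((y.re : ℝ) : ℂ) := by
      apply Complex.ext <;> simp [h0]
    have hu : uy y = (((y.re + 1) / (y.re - 1) : ℝ) : ℂ) := by
      rw [← uy_real, ← hy]
    have hm : (y.re + 1) / (y.re - 1) ∈ Iv q := by
      have h4 := uy_mem_OmI hq
      rw [hu] at h4
      exact h4 (Complex.ofReal_im _)
    rw [Vy_strip hW 7 hq, Vy_strip hW 6 hq, hu]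
    exact H3.KPos.W_pos_real hV (hW q) hm

/-! ### identity theorems -/

/-- a function which is constant on the third quadrant is constant on `OmY` -/
theorem const_ext {f : ℂ → ℂ} {k : ℂ} (hf : DifferentiableOn ℂ f OmY)
    (h : ∀ y : ℂ, y.im < 0 → y.re < 0 → f y = k) : ∀ y ∈ OmY, f y = k := by
  have hlow : ∀ y : ℂ, y.im < 0 → f y = k := by
    have ho : IsOpen {y : ℂ | y.im < 0} := isOpen_lt Complex.continuous_im continuous_const
    have hsub : {y : ℂ | y.im < 0} ⊆ OmY := fun y hy => Or.inl hy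
    have hconv : Convex ℝ {y : ℂ | y.im < 0} := convex_halfSpace_im_lt 0
    have h1 : ((-1 : ℝ) + (-1 : ℝ) * Complex.I : ℂ) ∈ {y : ℂ | y.im < 0} := by simp
    have h2 := ((hf.mono hsub).analyticOnNhd ho).eqOn_of_preconnected_of_eventuallyEq
      (analyticOnNhd_const (v := k)) hconv.isPreconnected h1 (by
        have ho2 : IsOpen {y : ℂ | y.re < 0} := isOpen_lt Complex.continuous_re continuous_const
        filter_upwards [ho.mem_nhds h1, ho2.mem_nhds (by simp :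
          ((-1 : ℝ) + (-1 : ℝ) * Complex.I : ℂ) ∈ {y : ℂ | y.re < 0})] with y h3 h4
        exact h y h3 h4)
    exact fun y hy => h2 hy
  intro y hy
  rcases hy with hy | ⟨h1, h2, h3⟩
  · exact hlow y hy
  · obtain ⟨q, hq⟩ := exists_Jv h1 h2 h3
    have hS : IsOpen {y : ℂ | y.re ∈ Jv q} := (isOpen_Jv q).preimage Complex.continuous_re
    refine strip_ext hS (convex_Jv q) (hf.mono fun z hz => mem_OmY_of_Jv hz)
      (differentiableOn_const (c := k)) (fun z _ hz => hlow z hz) ⟨⟨y.re, -1⟩, hq, by simp⟩ hq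

section
variable {X : Fin 8 → ℂ → Fin 8 → ℂ}

theorem third_mem {y : ℂ} (h : y.im < 0) (h' : y.re < 0) : y ∈ RY 0 := ⟨h', Or.inl h⟩

theorem YD.ent (hX : YD X) (i j : Fin 8) {k : ℂ}
    (h : ∀ T t : ℂ, gl0 T t i j = k) : ∀ y ∈ OmY, X i y j = k :=
  const_ext (hX.diff i j) fun y h1 h2 => by
    rw [hX.cusp 0 i y (third_mem h1 h2)]
    exact h _ _

/-- the reflection on the whole strip -/
theorem YD.strip (hX : YD X) (q : Fin 4) (i j : Fin 8) {y : ℂ} (hy : y.re ∈ Jv q) :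
    X i y j = ∑ k, conj (Rf q i k) * conj (X k (conj y) j) := by
  have hS : IsOpen {y : ℂ | y.re ∈ Jv q} := (isOpen_Jv q).preimage Complex.continuous_re
  have hf : DifferentiableOn ℂ (fun y => X i y j) {y : ℂ | y.re ∈ Jv q} :=
    (hX.diff i j).mono fun z hz => mem_OmY_of_Jv hz
  have hg : DifferentiableOn ℂ (fun y => ∑ k, conj (Rf q i k) * conj (X k (conj y) j))
      {y : ℂ | y.re ∈ Jv q} := by
    refine DifferentiableOn.fun_sum fun k _ => (differentiableOn_const _).mul ?_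
    intro z hz
    have h1 : DifferentiableAt ℂ (fun y => X k y j) (conj z) :=
      (hX.diff k j).differentiableAt (isOpen_OmY.mem_nhds (conj_mem_OmY hz))
    have := h1.hasDerivAt.conj_conj
    rw [Complex.conj_conj] at this
    exact this.differentiableAt.differentiableWithinAt
  have hz0 : (⟨y.re, 1⟩ : ℂ) ∈ {y : ℂ | y.re ∈ Jv q} := hy
  refine (hf.analyticOnNhd hS).eqOn_of_preconnected_of_eventuallyEq (hg.analyticOnNhd hS)
    (convex_Jv q).isPreconnected hz0 ?_ hy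
  filter_upwards [hS.mem_nhds hz0, (isOpen_lt continuous_const Complex.continuous_im).mem_nhds
    (by simp : (⟨y.re, 1⟩ : ℂ) ∈ {y : ℂ | 0 < y.im})] with z h1 h2
  exact hX.refl q i j z (le_of_lt h2) h1

/-! ### the `S`-plane -/

/-- the chart -/
def yz (z : ℂ) : ℂ := 1 - 2 * z

theorem yz_re (z : ℂ) : (yz z).re = 1 - 2 * z.re := by simp [yz]
theorem yz_im (z : ℂ) : (yz z).im = -2 * z.im := by simp [yz]
theorem yz_conj (z : ℂ) : yz (conj z) = conj (yz z) := by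
  apply Complex.ext <;> simp [yz]

/-- the domain -/
def OmP : Set ℂ := {z | yz z ∈ OmY}

theorem mem_OmP {z : ℂ} : z ∈ OmP ↔ 0 < z.im ∨ (z.re ≠ 1 ∧ z.re ≠ 1 / 2 ∧ z.re ≠ 0) := by
  simp only [OmP, OmY, mem_ofPred_eq, yz_re, yz_im]
  constructor
  · rintro (h | ⟨h1, h2, h3⟩)
    · left; linarith
    · refine Or.inr ⟨fun h => h1 (by rw [h]; norm_num), fun h => h2 (by rw [h]; norm_num),
        fun h => h3 (by rw [h]; norm_num)⟩
  · rintro (h | ⟨h1, h2, h3⟩)
    · left; linarith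
    · exact Or.inr ⟨fun h => h1 (by linarith), fun h => h2 (by linarith),
        fun h => h3 (by linarith)⟩

theorem isOpen_OmP : IsOpen OmP :=
  isOpen_OmY.preimage (by unfold yz; fun_prop)

/-- the strips -/
def Sq (q : Fin 4) : Set ℂ := {z | (yz z).re ∈ Jv q}

theorem Sq_sub (q : Fin 4) : Sq q ⊆ OmP := fun _ hz => mem_OmY_of_Jv hz

theorem conj_mem_Sq {q : Fin 4} {z : ℂ} : conj z ∈ Sq q ↔ z ∈ Sq q := by
  simp [Sq, yz_conj]

/-- the mirror domain -/
theorem mem_both {z : ℂ} (h : z ∈ OmP) (h' : conj z ∈ OmP) : ∃ q, z ∈ Sq q := by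
  rw [mem_OmP] at h h'
  have h2 : z.re ≠ 1 ∧ z.re ≠ 1 / 2 ∧ z.re ≠ 0 := by
    rcases h with h | h
    · rcases h' with h' | h'
      · rw [Complex.conj_im] at h'; linarith
      · simpa using h'
    · exact h
  refine exists_Jv (x := (yz z).re) ?_ ?_ ?_
  · rw [yz_re]; intro h3; exact h2.1 (by linarith)
  · rw [yz_re]; intro h3; exact h2.2.1 (by linarith)
  · rw [yz_re]; intro h3; exact h2.2.2 (by linarith)

/-- the change of the coordinates -/
def colY (v : Fin 8 → ℂ) : Fin 8 → ℂ := ![v 0, v 1, v 2, v 3 - v 4, v 5, v 4, v 6, v 7]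

/-- the rows -/
def rowX (X : Fin 8 → ℂ → Fin 8 → ℂ) (y : ℂ) : Fin 8 → Fin 8 → ℂ :=
  ![X 0 y, X 1 y, X 2 y, X 3 y, X 5 y, X 3 y + X 4 y, (1 / pc) • X 6 y, (1 / pc) • X 7 y]

/-- the flat matrix -/
def Pz (X : Fin 8 → ℂ → Fin 8 → ℂ) (z : ℂ) : Matrix (Fin 8) (Fin 8) ℂ :=
  fun i => colY (rowX X (yz z) i)

/-- the mirror -/
def Pm' (X : Fin 8 → ℂ → Fin 8 → ℂ) (z : ℂ) : Matrix (Fin 8) (Fin 8) ℂ :=
  fun i j => conj (Pz X (conj z) i j)

/-- reflection matrices in the rows of `Pz` -/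
def RqC : Fin 4 → Matrix (Fin 8) (Fin 8) ℂ
  | 0 => !![1, 0, 0, 0, 0, 0, 0, 0;
            0, 1, 0, -(2 * (Complex.I * pc)), 0, 2 * (Complex.I * pc), 0, 0;
            0, 0, 1, 0, 0, 2 * (Complex.I * pc), 0, 0;
            0, 0, 0, 1, 0, 0, 0, 0;
            0, 0, 0, 0, 1, 0, 0, 0;
            0, 0, 0, 0, 0, 1, 0, 0;
            0, 0, 0, 0, 0, 0, -3, -(2 * Complex.I);
            0, 0, 0, 0, 0, 0, 4 * Complex.I, -3]
  | 1 => !![1, 0, 0, 0, 0, 0, 0, 0;
            0, 1, 0, 0, 0, 0, 0, 0;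
            0, 0, 1, 2 * (Complex.I * pc), 0, 0, 0, 0;
            0, 0, 0, 1, 0, 0, 0, 0;
            0, 0, 0, 0, 1, 0, 0, 0;
            0, 0, 0, 0, 0, 1, 0, 0;
            0, 0, 0, 0, 0, 0, 1, 0;
            0, 0, 0, 0, 0, 0, -(4 * Complex.I), 1]
  | 2 => 1
  | 3 => !![1, 0, 2 * (Complex.I * pc), 2 * (Complex.I * pc) * (l2 / 2),
              2 * (Complex.I * pc) * (l2 / 2 + Complex.I * pc),
              -(2 * (Complex.I * pc) * (l2 / 2)),
              Complex.I * (Complex.I * pc) ^ 2 / 2, -((Complex.I * pc) ^ 2 / 2);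
            0, 1, 0, -(Complex.I * pc), Complex.I * pc, Complex.I * pc, 0, 0;
            0, 0, 1, 0, 2 * (Complex.I * pc), 0, 0, 0;
            0, 0, 0, 1, 0, 0, 0, 0;
            0, 0, 0, 0, 1, 0, 0, 0;
            0, 0, 0, 0, 0, 1, 0, 0;
            0, 0, 0, 0, 0, 0, 1, 2 * Complex.I;
            0, 0, 0, 0, 0, 0, 0, 1]

theorem conj_pc : conj pc = pc := Complex.conj_ofReal _
theorem conj_l2 : conj l2 = l2 := Complex.conj_ofReal _

theorem rowX_refl (hX : YD X) (q : Fin 4) (i j : Fin 8) {y : ℂ} (hy : y.re ∈ Jv q) :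
    rowX X y i j = ∑ k, RqC q i k * conj (rowX X (conj y) k j) := by
  have h := fun i => hX.strip q i j hy
  have hp := pc_ne
  have hI := Complex.I_sq
  have h2' : conj (2 : ℂ) = 2 := Complex.conj_ofNat 2
  have h3' : conj (3 : ℂ) = 3 := Complex.conj_ofNat 3
  have h4' : conj (4 : ℂ) = 4 := Complex.conj_ofNat 4
  generalize hc : (fun k => conj (X k (conj y) j)) = Y at *
  have hc' : ∀ k, conj (X k (conj y) j) = Y k := fun k => congrFun hc k
  simp only [hc'] at h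
  have hr : ∀ k, conj (rowX X (conj y) k j) =
      (![Y 0, Y 1, Y 2, Y 3, Y 5, Y 3 + Y 4, 1 / pc * Y 6, 1 / pc * Y 7] : Fin 8 → ℂ) k := by
    intro k
    fin_cases k <;> simp [rowX, hc', conj_pc]
  simp only [hr]
  fin_cases q <;> fin_cases i <;>
    simp [rowX, h, Fin.sum_univ_eight, RqC, Rf, conj_pc, conj_l2, Matrix.one_apply, h2', h3', h4'] <;>
    field_simp <;> ring_nf <;> (try simp [hI]) <;> (try ring_nf)

/-- **the strip relation** -/
theorem Pz_strip (hX : YD X) (q : Fin 4) {z : ℂ} (hz : z ∈ Sq q) (i j : Fin 8) :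
    Pz X z i j = ∑ k, RqC q i k * Pm' X z k j := by
  have h : ∀ j, rowX X (yz z) i j = ∑ k, RqC q i k * conj (rowX X (conj (yz z)) k j) :=
    fun j => rowX_refl hX q i j hz
  simp only [Pz, Pm', yz_conj]
  fin_cases j
  · exact h 0
  · exact h 1
  · exact h 2
  · change rowX X (yz z) i 3 - rowX X (yz z) i 4 =
      ∑ k, RqC q i k * conj (rowX X (conj (yz z)) k 3 - rowX X (conj (yz z)) k 4)
    rw [h 3, h 4, ← Finset.sum_sub_distrib]
    refine Finset.sum_congr rfl fun k _ => ?_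
    rw [map_sub]
    ring
  · exact h 5
  · exact h 4
  · exact h 6
  · exact h 7

theorem Pm'_strip (hX : YD X) (q : Fin 4) {z : ℂ} (hz : z ∈ Sq q) (i j : Fin 8) :
    Pm' X z i j = ∑ k, conj (RqC q i k) * Pz X z k j := by
  have h := Pz_strip hX q (conj_mem_Sq.2 hz) i j
  have h1 := congrArg conj h
  rw [map_sum] at h1
  change conj (Pz X (conj z) i j) = _
  rw [h1]
  refine Finset.sum_congr rfl fun k _ => ?_
  simp only [Pm', map_mul, Complex.conj_conj]

theorem gl0_ent (T t : ℂ) : gl0 T t 0 0 = 1 ∧ gl0 T t 1 0 = 0 ∧ gl0 T t 1 1 = 1 ∧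
    gl0 T t 2 0 = 0 ∧ gl0 T t 2 1 = 0 ∧ gl0 T t 2 2 = 1 := by
  refine ⟨?_, ?_, ?_, ?_, ?_, ?_⟩ <;>
    simp [gl0, tupC, evt, tup0, tup1, zL0, dv, Pi.single_apply, AR.evq_zero, AR.evq_one]

theorem gl0_const (T t : ℂ) (j : Fin 8) : gl0 T t 3 j = dv j ∧ gl0 T t 4 j = gv j ∧
    gl0 T t 5 j = hv j := by
  refine ⟨?_, ?_, ?_⟩ <;> simp [gl0]

theorem gl0_K (T t : ℂ) (j : Fin 8) (hj : j < 6) : gl0 T t 6 j = 0 ∧ gl0 T t 7 j = 0 := by
  have : j = 0 ∨ j = 1 ∨ j = 2 ∨ j = 3 ∨ j = 4 ∨ j = 5 := by omega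
  rcases this with rfl | rfl | rfl | rfl | rfl | rfl <;>
    simp [gl0, tupC, evt, tup0, tup1, zM0, AR.evq_zero]

theorem Pz_adap (hX : YD X) {z : ℂ} (hz : z ∈ OmP) : Adap (Pz X z) := by
  have hz' : yz z ∈ OmY := hz
  have e00 := hX.ent 0 0 (fun T t => (gl0_ent T t).1) _ hz'
  have e10 := hX.ent 1 0 (fun T t => (gl0_ent T t).2.1) _ hz'
  have e11 := hX.ent 1 1 (fun T t => (gl0_ent T t).2.2.1) _ hz'
  have e20 := hX.ent 2 0 (fun T t => (gl0_ent T t).2.2.2.1) _ hz'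
  have e21 := hX.ent 2 1 (fun T t => (gl0_ent T t).2.2.2.2.1) _ hz'
  have e22 := hX.ent 2 2 (fun T t => (gl0_ent T t).2.2.2.2.2) _ hz'
  have e3 := fun j => hX.ent 3 j (fun T t => (gl0_const T t j).1) _ hz'
  have e4 := fun j => hX.ent 4 j (fun T t => (gl0_const T t j).2.1) _ hz'
  have e5 := fun j => hX.ent 5 j (fun T t => (gl0_const T t j).2.2) _ hz'
  have e6 := fun j hj => hX.ent 6 j (fun T t => (gl0_K T t j hj).1) _ hz'
  have e7 := fun j hj => hX.ent 7 j (fun T t => (gl0_K T t j hj).2) _ hz'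
  refine ⟨?_, ?_, ?_, ?_⟩
  · intro i j hi hji
    have hi' : i = 0 ∨ i = 1 ∨ i = 2 ∨ i = 3 ∨ i = 4 ∨ i = 5 := by omega
    have hj' : j = 0 ∨ j = 1 ∨ j = 2 ∨ j = 3 ∨ j = 4 := by omega
    rcases hi' with rfl | rfl | rfl | rfl | rfl | rfl <;>
      rcases hj' with rfl | rfl | rfl | rfl | rfl <;>
      first
        | exact absurd hji (by decide)
        | simp [Pz, colY, rowX, e10, e20, e21, e3, e4, e5, dv, gv, hv, Pi.single_apply]
  · intro i hi
    have hi' : i = 0 ∨ i = 1 ∨ i = 2 ∨ i = 3 ∨ i = 4 ∨ i = 5 := by omega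
    rcases hi' with rfl | rfl | rfl | rfl | rfl | rfl <;>
      simp [Pz, colY, rowX, e00, e11, e22, e3, e4, e5, dv, gv, hv, Pi.single_apply]
  · intro j hj
    have hj' : j = 0 ∨ j = 1 ∨ j = 2 ∨ j = 3 ∨ j = 4 ∨ j = 5 := by omega
    have z0 := e6 0 (by decide)
    have z1 := e6 1 (by decide)
    have z2 := e6 2 (by decide)
    have z3 := e6 3 (by decide)
    have z4 := e6 4 (by decide)
    have z5 := e6 5 (by decide)
    rcases hj' with rfl | rfl | rfl | rfl | rfl | rfl <;>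
      simp [Pz, colY, rowX, z0, z1, z2, z3, z4, z5]
  · intro j hj
    have hj' : j = 0 ∨ j = 1 ∨ j = 2 ∨ j = 3 ∨ j = 4 ∨ j = 5 := by omega
    have z0 := e7 0 (by decide)
    have z1 := e7 1 (by decide)
    have z2 := e7 2 (by decide)
    have z3 := e7 3 (by decide)
    have z4 := e7 4 (by decide)
    have z5 := e7 5 (by decide)
    rcases hj' with rfl | rfl | rfl | rfl | rfl | rfl <;>
      simp [Pz, colY, rowX, z0, z1, z2, z3, z4, z5]

theorem Adap.conj' {P : Matrix (Fin 8) (Fin 8) ℂ} (h : Adap P) :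
    Adap (fun i j => conj (P i j)) := by
  obtain ⟨h1, h2, h3, h4⟩ := h
  exact ⟨fun i j hi hj => by simp [h1 i j hi hj], fun i hi => by simp [h2 i hi],
    fun j hj => by simp [h3 j hj], fun j hj => by simp [h4 j hj]⟩

theorem Pm'_adap (hX : YD X) {z : ℂ} (hz : conj z ∈ OmP) : Adap (Pm' X z) :=
  (Pz_adap hX hz).conj'

theorem rowX_diff (hX : YD X) (i j : Fin 8) :
    DifferentiableOn ℂ (fun z => rowX X (yz z) i j) OmP := by
  have h : ∀ i, DifferentiableOn ℂ (fun z => X i (yz z) j) OmP := fun i =>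
    (hX.diff i j).comp (by unfold yz; fun_prop) fun z hz => hz
  fin_cases i
  · exact h 0
  · exact h 1
  · exact h 2
  · exact h 3
  · exact h 5
  · exact (h 3).add (h 4)
  · exact (h 6).const_mul _
  · exact (h 7).const_mul _

theorem Pz_diff (hX : YD X) (i j : Fin 8) : DifferentiableOn ℂ (fun z => Pz X z i j) OmP := by
  have h := rowX_diff hX i
  fin_cases j
  · exact h 0
  · exact h 1
  · exact h 2
  · exact (h 3).sub (h 4)
  · exact h 5
  · exact h 4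
  · exact h 6
  · exact h 7

/-! ### the frames of a cell -/

/-- the `F` component of the `K`-line -/
def kap (X : Fin 8 → ℂ → Fin 8 → ℂ) (B : Matrix (Fin 8) (Fin 8) ℂ) (z : ℂ) : ℂ :=
  kF (Pz X z) (B 6 6) (B 6 7)

/-- **no zeros of the `K`-lines** on the closed upper half plane without the cusps -/
theorem kap_ne (hX : YD X) {B : Matrix (Fin 8) (Fin 8) ℂ} (hB : 0 ≤ (B 6 6 * conj (B 6 7)).re)
    (hB0 : B 6 6 ≠ 0 ∨ B 6 7 ≠ 0) {z : ℂ} (hz : 0 < z.im ∨
      (z.im = 0 ∧ z.re ≠ 1 ∧ z.re ≠ 1 / 2 ∧ z.re ≠ 0)) : kap X B z ≠ 0 := by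
  have h1 : (yz z).im < 0 ∨ ((yz z).im = 0 ∧ (yz z).re ≠ -1 ∧ (yz z).re ≠ 0 ∧ (yz z).re ≠ 1) := by
    rw [yz_re, yz_im]
    rcases hz with h | ⟨h0, h1, h2, h3⟩
    · left; linarith
    · right
      refine ⟨by rw [h0]; ring, fun h => h1 (by linarith), fun h => h2 (by linarith),
        fun h => h3 (by linarith)⟩
  have h2 := hX.kpos _ h1
  have hp := pc_ne
  have h3 := H3.KPos.comb_ne_of_pos h2 hB hB0
  have h4 : kap X B z = (1 / pc) * (B 6 6 * X 6 (yz z) 6 + B 6 7 * X 7 (yz z) 6) := by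
    simp only [kap, kF, Pz, colY, rowX]
    simp
    ring
  rw [h4]
  exact mul_ne_zero (one_div_ne_zero hp) h3

/-- the closed upper half plane without the cusps is in the domain -/
theorem mem_OmP_of {z : ℂ} (hz : 0 < z.im ∨ (z.im = 0 ∧ z.re ≠ 1 ∧ z.re ≠ 1 / 2 ∧ z.re ≠ 0)) :
    z ∈ OmP := by
  rw [mem_OmP]
  rcases hz with h | ⟨_, h⟩
  · exact Or.inl h
  · exact Or.inr h

/-- the domain of an upper cell -/
def Uc (X : Fin 8 → ℂ → Fin 8 → ℂ) (B : Matrix (Fin 8) (Fin 8) ℂ) : Set ℂ :=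
  {z | z ∈ OmP ∧ kap X B z ≠ 0}

theorem mem_Uc (hX : YD X) {B : Matrix (Fin 8) (Fin 8) ℂ}
    (hB : 0 ≤ (B 6 6 * conj (B 6 7)).re) (hB0 : B 6 6 ≠ 0 ∨ B 6 7 ≠ 0) {z : ℂ} (hz : 0 < z.im ∨
      (z.im = 0 ∧ z.re ≠ 1 ∧ z.re ≠ 1 / 2 ∧ z.re ≠ 0)) : z ∈ Uc X B :=
  ⟨mem_OmP_of hz, kap_ne hX hB hB0 hz⟩

theorem kap_diff (hX : YD X) (B : Matrix (Fin 8) (Fin 8) ℂ) :
    DifferentiableOn ℂ (kap X B) OmP :=
  ((Pz_diff hX 6 6).const_mul _).add ((Pz_diff hX 7 6).const_mul _)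

theorem isOpen_Uc (hX : YD X) (B : Matrix (Fin 8) (Fin 8) ℂ) : IsOpen (Uc X B) :=
  (kap_diff hX B).continuousOn.isOpen_inter_preimage isOpen_OmP isOpen_compl_singleton

theorem frm_diff (hX : YD X) (B : Matrix (Fin 8) (Fin 8) ℂ) (b c : Fin 8) :
    DifferentiableOn ℂ (fun z => frm (Pz X z) B b c) (Uc X B) := by
  have hsub : Uc X B ⊆ OmP := fun z hz => hz.1
  by_cases hb : b < 6
  · simp only [frm_lt hb]
    exact DifferentiableOn.fun_sum fun i _ => ((Pz_diff hX i c).mono hsub).const_mul _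
  · have : b = 6 ∨ b = 7 := by omega
    rcases this with rfl | rfl
    · simp only [frm_six, Pi.add_apply, Pi.smul_apply, smul_eq_mul]
      refine (differentiableOn_const _).add (DifferentiableOn.mul_const ?_ _)
      refine DifferentiableOn.div ?_ ((kap_diff hX B).mono hsub) fun z hz => hz.2
      exact ((((Pz_diff hX 6 7).const_mul _).add ((Pz_diff hX 7 7).const_mul _))).mono hsub
    · simp only [frm_seven]
      exact differentiableOn_const _

end

end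

end Vale.Agent.P030.H265
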