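import Vale.Agent.P030.H152.CellNorm
import Vale.Agent.P030.H580.Part

/-!
# P030, THIN: from inequalities on the walls to the cells and partitions of unity (helper265)

`exists_cells`: closed conditions `W c ≤ W b` on the walls of a decision tree (no slack, no
neighbourhood) give, for every `η > 0`, helper152's `Cells` for the weights `s * W b` with
constant `C0 * exp (η s)` and the partitions of unity `PU` for all finite sets.
-/

open Matrix MeasureTheory Set Filter Topology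
open Vale.Agent.P030.H580 Vale.Agent.P030.H152

namespace Vale.Agent.P030.H265

section tree
variable {κ ι : Type}

/-- open regions -/
def rgo (g : κ → ℂ → ℝ) (ε : ℝ) : WTree κ ι → ι → Set ℂ
  | .leaf i0, i => {_z | i = i0}
  | .node j l r, i => ({z | -ε < g j z} ∩ rgo g ε r i) ∪ ({z | g j z < ε} ∩ rgo g ε l i)

theorem isOpen_rgo {g : κ → ℂ → ℝ} (hg : ∀ j, Continuous (g j)) (ε : ℝ) (T : WTree κ ι) (i : ι) :
    IsOpen (rgo g ε T i) := by
  induction T with
  | leaf i0 => exact isOpen_const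
  | node j l r hl hr =>
    exact ((isOpen_lt continuous_const (hg j)).inter hr).union
      ((isOpen_lt (hg j) continuous_const).inter hl)

theorem reg_mono {g : κ → ℂ → ℝ} {ε ε' : ℝ} (h : ε ≤ ε') (T : WTree κ ι) (i : ι) :
    T.reg g ε i ⊆ T.reg g ε' i := by
  induction T with
  | leaf i0 => exact subset_rfl
  | node j l r hl hr =>
    refine union_subset_union (inter_subset_inter ?_ hr) (inter_subset_inter ?_ hl)
    · intro z hz; exact (neg_le_neg h).trans hz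
    · intro z hz; exact le_trans hz h

theorem reg_subset_rgo {g : κ → ℂ → ℝ} {ε ε' : ℝ} (h : ε < ε') (T : WTree κ ι) (i : ι) :
    T.reg g ε i ⊆ rgo g ε' T i := by
  induction T with
  | leaf i0 => exact subset_rfl
  | node j l r hl hr =>
    refine union_subset_union (inter_subset_inter ?_ hr) (inter_subset_inter ?_ hl)
    · intro z hz; exact lt_of_lt_of_le (neg_lt_neg h) hz
    · intro z hz; exact lt_of_le_of_lt hz h

theorem rgo_subset_reg {g : κ → ℂ → ℝ} {ε : ℝ} (T : WTree κ ι) (i : ι) :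
    rgo g ε T i ⊆ T.reg g ε i := by
  induction T with
  | leaf i0 => exact subset_rfl
  | node j l r hl hr =>
    refine union_subset_union (inter_subset_inter ?_ hr) (inter_subset_inter ?_ hl)
    · intro z (hz : -ε < g j z); exact hz.le
    · intro z (hz : g j z < ε); exact hz.le

theorem reg_cover [DecidableEq ι] (g : κ → ℂ → ℝ) (T : WTree κ ι) (z : ℂ) :
    ∃ i, z ∈ T.reg g 0 i := by
  induction T with
  | leaf i0 => exact ⟨i0, rfl⟩
  | node j l r hl hr =>
    rcases le_total 0 (g j z) with h | h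
    · obtain ⟨i, hi⟩ := hr
      exact ⟨i, Or.inl ⟨by simpa using h, hi⟩⟩
    · obtain ⟨i, hi⟩ := hl
      exact ⟨i, Or.inr ⟨h, hi⟩⟩

theorem exists_notMem_reg {g : κ → ℂ → ℝ} (T : WTree κ ι) (i : ι) {z : ℂ}
    (h : z ∉ T.reg g 0 i) : ∃ ε : ℝ, 0 < ε ∧ z ∉ T.reg g ε i := by
  induction T with
  | leaf i0 => exact ⟨1, one_pos, h⟩
  | node j l r hl hr =>
    have h1 : ∃ ε : ℝ, 0 < ε ∧ z ∉ ({z | -ε ≤ g j z} ∩ r.reg g ε i) := by
      by_cases hr0 : z ∈ r.reg g 0 i
      · have hg : g j z < 0 := by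
          by_contra hc
          exact h (Or.inl ⟨by simpa using hc, hr0⟩)
        refine ⟨-g j z / 2, by linarith, fun hc => ?_⟩
        have := hc.1
        simp only [Set.mem_ofPred_eq] at this
        linarith
      · obtain ⟨ε, h1, h2⟩ := hr hr0
        exact ⟨ε, h1, fun hc => h2 hc.2⟩
    have h2 : ∃ ε : ℝ, 0 < ε ∧ z ∉ ({z | g j z ≤ ε} ∩ l.reg g ε i) := by
      by_cases hl0 : z ∈ l.reg g 0 i
      · have hg : 0 < g j z := by
          by_contra hc
          exact h (Or.inr ⟨not_lt.1 hc, hl0⟩)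
        refine ⟨g j z / 2, by linarith, fun hc => ?_⟩
        have := hc.1
        simp only [Set.mem_ofPred_eq] at this
        linarith
      · obtain ⟨ε, h1, h2⟩ := hl hl0
        exact ⟨ε, h1, fun hc => h2 hc.2⟩
    obtain ⟨a, ha, ha'⟩ := h1
    obtain ⟨b, hb, hb'⟩ := h2
    refine ⟨min a b, lt_min ha hb, ?_⟩
    rintro (hc | hc)
    · exact ha' ⟨(neg_le_neg (min_le_left a b)).trans hc.1, reg_mono (min_le_left a b) r i hc.2⟩
    · exact hb' ⟨le_trans hc.1 (min_le_right a b), reg_mono (min_le_right a b) l i hc.2⟩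

/-- the inequality on the wall extends to a neighbourhood of the wall with slack `η` -/
theorem exists_thin [DecidableEq ι] {g : κ → ℂ → ℝ} (hg : ∀ j, Continuous (g j)) (T : WTree κ ι)
    (i i' : ι) {K Z : Set ℂ} (hK : IsCompact K) (hZ : IsClosed Z) {φ : ℂ → ℝ} (hφ : Continuous φ)
    (h : ∀ z ∈ K, z ∈ T.reg g 0 i → z ∈ T.reg g 0 i' → z ∈ Z → φ z ≤ 0) {η : ℝ} (hη : 0 < η) :
    ∃ ε : ℝ, 0 < ε ∧ ∀ z ∈ K, z ∈ T.reg g ε i → z ∈ T.reg g ε i' → z ∈ Z → φ z ≤ η := by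
  let F : {ε : ℝ // 0 < ε} → Set ℂ := fun ε =>
    T.reg g ε.1 i ∩ T.reg g ε.1 i' ∩ Z ∩ {z | η ≤ φ z}
  have hF : ∀ ε, IsClosed (F ε) := fun ε =>
    (((T.isClosed_reg hg ε.1 i).inter (T.isClosed_reg hg ε.1 i')).inter hZ).inter
      (isClosed_le continuous_const hφ)
  have : Nonempty {ε : ℝ // 0 < ε} := ⟨⟨1, one_pos⟩⟩
  obtain ⟨ε, hε⟩ := hK.elim_directed_cover (fun ε => (F ε)ᶜ) (fun ε => (hF ε).isOpen_compl)
    (by
      intro z hz
      rw [mem_iUnion]
      by_cases h1 : z ∈ T.reg g 0 i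
      · by_cases h2 : z ∈ T.reg g 0 i'
        · by_cases h3 : z ∈ Z
          · refine ⟨⟨1, one_pos⟩, fun hc => ?_⟩
            have h4 := h z hz h1 h2 h3
            have h5 : η ≤ φ z := hc.2
            linarith
          · exact ⟨⟨1, one_pos⟩, fun hc => h3 hc.1.2⟩
        · obtain ⟨ε, h4, h5⟩ := exists_notMem_reg T i' h2
          exact ⟨⟨ε, h4⟩, fun hc => h5 hc.1.1.2⟩
      · obtain ⟨ε, h4, h5⟩ := exists_notMem_reg T i h1
        exact ⟨⟨ε, h4⟩, fun hc => h5 hc.1.1.1⟩)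
    (by
      intro a b
      refine ⟨⟨min a.1 b.1, lt_min a.2 b.2⟩, ?_, ?_⟩
      · refine compl_subset_compl.2 ?_
        exact inter_subset_inter (inter_subset_inter (inter_subset_inter
          (reg_mono (min_le_left _ _) T i) (reg_mono (min_le_left _ _) T i')) subset_rfl) subset_rfl
      · refine compl_subset_compl.2 ?_
        exact inter_subset_inter (inter_subset_inter (inter_subset_inter
          (reg_mono (min_le_right _ _) T i) (reg_mono (min_le_right _ _) T i')) subset_rfl)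
          subset_rfl)
  refine ⟨ε.1, ε.2, fun z hz h1 h2 h3 => ?_⟩
  by_contra hc
  exact hε hz ⟨⟨⟨h1, h2⟩, h3⟩, (not_le.1 hc).le⟩

end tree

section main
variable {κ ι : Type} [DecidableEq ι] [Fintype ι] [Fintype κ] {m : ℕ}

theorem inv_eq_adj {S : Matrix (Fin m) (Fin m) ℂ} (h : Unitri S) : S⁻¹ = S.adjugate := by
  rw [Matrix.inv_def, h.det, Ring.inverse_one, one_smul]

/-- wall data: a decision tree of walls, an exterior cell, unitriangular holomorphic frames, and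
the closed sets where the entries of the transition matrices live -/
structure WallData (κ ι : Type) [DecidableEq ι] [Fintype ι] [Fintype κ] (m : ℕ) where
  T : WTree κ ι
  g : κ → ℂ → ℝ
  smooth : ∀ j, ContDiff ℝ 1 (g j)
  ε0 : ℝ
  L : ℝ
  R1 : ℝ
  ie : ι
  ε0_pos : 0 < ε0
  L_pos : 0 < L
  der : ∀ j z, |g j z| ≤ ε0 → ‖fderiv ℝ (g j) z‖ ≤ L
  lip : ∀ j x z, |g j x| ≤ ε0 → dist x z ≤ 1 → |g j x - g j z| ≤ L * dist x z
  ext : ∀ z : ℂ, R1 < ‖z‖ → ∀ i, i ≠ ie → z ∉ T.reg g ε0 i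
  U : ι → Set ℂ
  reg_U : ∀ i, T.reg g ε0 i ⊆ U i
  isOpen_U : ∀ i, IsOpen (U i)
  S : ι → ℂ → Matrix (Fin m) (Fin m) ℂ
  uni : ∀ i, ∀ z ∈ U i, Unitri (S i z)
  hol : ∀ i b c, DifferentiableOn ℂ (fun z => S i z b c) (U i)
  lim : ∀ b, ∃ c : Fin m → ℂ, Tendsto (fun z => S ie z b) (cocompact ℂ) (𝓝 c)
  Z : ι → ι → Fin m → Fin m → Set ℂ
  closed_Z : ∀ i i' b c, IsClosed (Z i i' b c)
  zero : ∀ i i' z, z ∈ U i → z ∈ U i' → ∀ b c, z ∉ Z i i' b c → (S i z b ᵥ* (S i' z)⁻¹) c = 0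

namespace WallData
variable (G : WallData κ ι m)

/-- condition (C) on the walls -/
def Cond (W : Fin m → ℂ → ℝ) : Prop :=
  ∀ i i', i ≠ i' → ∀ b c, b ≠ c → ∀ z, z ∈ G.T.reg G.g 0 i → z ∈ G.T.reg G.g 0 i' →
    z ∈ G.Z i i' b c → W c z ≤ W b z

theorem continuousOn_trans (i i' : ι) (b c : Fin m) :
    ContinuousOn (fun z => (G.S i z b ᵥ* (G.S i' z)⁻¹) c) (G.U i ∩ G.U i') := by
  rw [continuousOn_iff_continuous_domRestrict]
  have h1 : Continuous fun z : ↥(G.U i ∩ G.U i') => G.S i z.1 b := by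
    refine continuous_pi fun a => ?_
    have := (G.hol i b a).continuousOn.mono (inter_subset_left (t := G.U i'))
    exact continuousOn_iff_continuous_domRestrict.1 this
  have h2 : Continuous fun z : ↥(G.U i ∩ G.U i') => G.S i' z.1 := by
    refine continuous_matrix fun a a' => ?_
    have := (G.hol i' a a').continuousOn.mono (inter_subset_right (s := G.U i))
    exact continuousOn_iff_continuous_domRestrict.1 this
  have h3 : Continuous fun z : ↥(G.U i ∩ G.U i') => G.S i z.1 b ᵥ* (G.S i' z.1).adjugate :=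
    Continuous.matrix_vecMul h1 h2.matrix_adjugate
  have h4 : (Set.domRestrict (G.U i ∩ G.U i') fun z => (G.S i z b ᵥ* (G.S i' z)⁻¹) c) =
      fun z : ↥(G.U i ∩ G.U i') => (G.S i z.1 b ᵥ* (G.S i' z.1).adjugate) c := by
    funext z
    simp only [Set.domRestrict_apply]
    rw [inv_eq_adj (G.uni i' z.1 z.2.2)]
  rw [h4]
  exact (continuous_apply c).comp h3

theorem exists_bound : ∃ C0 : ℝ, 1 ≤ C0 ∧ ∀ i i' b c z, ‖z‖ ≤ G.R1 → z ∈ G.T.reg G.g G.ε0 i →
    z ∈ G.T.reg G.g G.ε0 i' → ‖(G.S i z b ᵥ* (G.S i' z)⁻¹) c‖ ≤ C0 := by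
  classical
  have h1 : ∀ p : ι × ι × Fin m × Fin m, ∃ C : ℝ, ∀ z, ‖z‖ ≤ G.R1 →
      z ∈ G.T.reg G.g G.ε0 p.1 → z ∈ G.T.reg G.g G.ε0 p.2.1 →
      ‖(G.S p.1 z p.2.2.1 ᵥ* (G.S p.2.1 z)⁻¹) p.2.2.2‖ ≤ C := by
    rintro ⟨i, i', b, c⟩
    have hcl : IsClosed (G.T.reg G.g G.ε0 i ∩ G.T.reg G.g G.ε0 i') :=
      (G.T.isClosed_reg (fun j => (G.smooth j).continuous) _ _).inter
        (G.T.isClosed_reg (fun j => (G.smooth j).continuous) _ _)
    have hK : IsCompact (Metric.closedBall (0 : ℂ) G.R1 ∩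
        (G.T.reg G.g G.ε0 i ∩ G.T.reg G.g G.ε0 i')) := (isCompact_closedBall _ _).inter_right hcl
    obtain ⟨C, hC⟩ := hK.exists_bound_of_continuousOn
      ((G.continuousOn_trans i i' b c).mono fun z hz => ⟨G.reg_U i hz.2.1, G.reg_U i' hz.2.2⟩)
    exact ⟨C, fun z h1 h2 h3 => hC z ⟨by simpa using h1, h2, h3⟩⟩
  choose C hC using h1
  refine ⟨∑ p, |C p| + 1, by
    have := Finset.sum_nonneg fun (p : ι × ι × Fin m × Fin m) (_ : p ∈ Finset.univ) =>
      abs_nonneg (C p)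
    linarith, ?_⟩
  intro i i' b c z h1 h2 h3
  have h4 := hC (i, i', b, c) z h1 h2 h3
  have h5 : |C (i, i', b, c)| ≤ ∑ p, |C p| :=
    Finset.single_le_sum (f := fun p => |C p|) (fun p _ => abs_nonneg (C p)) (Finset.mem_univ _)
  have h6 := le_abs_self (C (i, i', b, c))
  linarith

/-- common thin neighbourhood -/
theorem exists_eps {W : Fin m → ℂ → ℝ} (hW : ∀ b, Continuous (W b)) (hC : G.Cond W) {η : ℝ}
    (hη : 0 < η) : ∃ ε : ℝ, 0 < ε ∧ ε ≤ G.ε0 ∧ ∀ i i', i ≠ i' → ∀ b c, b ≠ c → ∀ z, ‖z‖ ≤ G.R1 →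
      z ∈ G.T.reg G.g ε i → z ∈ G.T.reg G.g ε i' → z ∈ G.Z i i' b c → W c z ≤ W b z + η := by
  classical
  have h1 : ∀ p : ι × ι × Fin m × Fin m, ∃ ε : ℝ, 0 < ε ∧ (p.1 ≠ p.2.1 → p.2.2.1 ≠ p.2.2.2 →
      ∀ z, ‖z‖ ≤ G.R1 → z ∈ G.T.reg G.g ε p.1 → z ∈ G.T.reg G.g ε p.2.1 →
      z ∈ G.Z p.1 p.2.1 p.2.2.1 p.2.2.2 → W p.2.2.2 z ≤ W p.2.2.1 z + η) := by
    rintro ⟨i, i', b, c⟩
    by_cases hi : i = i'
    · exact ⟨1, one_pos, fun h => absurd hi h⟩
    by_cases hb : b = c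
    · exact ⟨1, one_pos, fun _ h => absurd hb h⟩
    obtain ⟨ε, h2, h3⟩ := exists_thin (fun j => (G.smooth j).continuous) G.T i i'
      (isCompact_closedBall (0 : ℂ) G.R1) (G.closed_Z i i' b c) (φ := fun z => W c z - W b z)
      ((hW c).sub (hW b)) (fun z _ h4 h5 h6 => by
        have := hC i i' hi b c hb z h4 h5 h6
        linarith) hη
    refine ⟨ε, h2, fun _ _ z h4 h5 h6 h7 => ?_⟩
    have := h3 z (by simpa using h4) h5 h6 h7
    linarith
  choose e he he' using h1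
  by_cases hne : Nonempty (ι × ι × Fin m × Fin m)
  · obtain ⟨p0, hp0⟩ := Finite.exists_min e
    refine ⟨min (e p0) G.ε0, lt_min (he p0) G.ε0_pos, min_le_right _ _, ?_⟩
    intro i i' hi b c hb z h1 h2 h3 h4
    have h5 : min (e p0) G.ε0 ≤ e (i, i', b, c) := (min_le_left _ _).trans (hp0 _)
    exact he' (i, i', b, c) hi hb z h1 (reg_mono h5 G.T i h2) (reg_mono h5 G.T i' h3) h4
  · refine ⟨G.ε0, G.ε0_pos, le_rfl, ?_⟩
    intro i i' _ b c
    exact absurd ⟨(i, i', b, c)⟩ hne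

/-- the cells -/
noncomputable def cells {W : Fin m → ℂ → ℝ} {η ε C0 : ℝ} (hε : 0 < ε) (hε0 : ε ≤ G.ε0)
    (hC0 : 1 ≤ C0)
    (hb : ∀ i i' b c z, ‖z‖ ≤ G.R1 → z ∈ G.T.reg G.g G.ε0 i →
      z ∈ G.T.reg G.g G.ε0 i' → ‖(G.S i z b ᵥ* (G.S i' z)⁻¹) c‖ ≤ C0)
    (hη : 0 < η)
    (hW : ∀ i i', i ≠ i' → ∀ b c, b ≠ c → ∀ z, ‖z‖ ≤ G.R1 →
      z ∈ G.T.reg G.g ε i → z ∈ G.T.reg G.g ε i' → z ∈ G.Z i i' b c → W c z ≤ W b z + η)
    (s : ℝ) (hs : 0 ≤ s) : Cells m ι (fun b z => s * W b z) (C0 * Real.exp (η * s)) where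
  O := fun i => rgo G.g ε G.T i
  isOpen := fun i => isOpen_rgo (fun j => (G.smooth j).continuous) ε G.T i
  cover := fun z => by
    obtain ⟨i, hi⟩ := reg_cover G.g G.T z
    exact ⟨i, reg_subset_rgo hε G.T i hi⟩
  S := G.S
  uni := fun i z hz => G.uni i z (G.reg_U i (reg_mono hε0 G.T i (rgo_subset_reg G.T i hz)))
  hol := fun i b c => (G.hol i b c).mono fun z hz =>
    G.reg_U i (reg_mono hε0 G.T i (rgo_subset_reg G.T i hz))
  tr := by
    intro i i' z hz hz' b c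
    have hr := rgo_subset_reg G.T i hz
    have hr' := rgo_subset_reg G.T i' hz'
    have hU := G.reg_U i (reg_mono hε0 G.T i hr)
    have hU' := G.reg_U i' (reg_mono hε0 G.T i' hr')
    have hE : 1 ≤ Real.exp (η * s) := Real.one_le_exp (by positivity)
    by_cases hi : i = i'
    · subst hi
      have h1 : G.S i z b ᵥ* (G.S i z)⁻¹ = fun c => (1 : Matrix (Fin m) (Fin m) ℂ) b c := by
        have h2 := Matrix.mul_nonsing_inv (G.S i z) (G.uni i z hU).isUnit
        rw [← h2]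
        rfl
      rw [h1]
      by_cases hbc : b = c
      · subst hbc
        simp only [Matrix.one_apply_eq, norm_one, one_mul]
        have h3 : 1 ≤ C0 * Real.exp (η * s) := one_le_mul_of_one_le_of_one_le hC0 hE
        nlinarith [Real.exp_pos (s * W b z)]
      · simp only [Matrix.one_apply_ne hbc, norm_zero, zero_mul]
        positivity
    · have hz1 : ‖z‖ ≤ G.R1 := by
        by_contra hc
        rw [not_le] at hc
        have h1 : i = G.ie := by
          by_contra hne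
          exact G.ext z hc i hne (reg_mono hε0 G.T i hr)
        have h2 : i' = G.ie := by
          by_contra hne
          exact G.ext z hc i' hne (reg_mono hε0 G.T i' hr')
        exact hi (h1.trans h2.symm)
      have hbd := hb i i' b c z hz1 (reg_mono hε0 G.T i hr) (reg_mono hε0 G.T i' hr')
      by_cases hZ : z ∈ G.Z i i' b c ∨ b = c
      · have h1 : W c z ≤ W b z + η := by
          by_cases hbc : b = c
          · subst hbc; linarith
          · exact hW i i' hi b c hbc z hz1 hr hr' (hZ.resolve_right hbc)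
        have h2 : Real.exp (s * W c z) ≤ Real.exp (η * s) * Real.exp (s * W b z) := by
          rw [← Real.exp_add]
          refine Real.exp_le_exp.2 ?_
          have := mul_le_mul_of_nonneg_left h1 hs
          linarith
        calc ‖(G.S i z b ᵥ* (G.S i' z)⁻¹) c‖ * Real.exp (s * W c z)
            ≤ C0 * (Real.exp (η * s) * Real.exp (s * W b z)) :=
              mul_le_mul hbd h2 (Real.exp_pos _).le (by linarith)
          _ = _ := by ring
      · push Not at hZ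
        rw [G.zero i i' z hU hU' b c hZ.1, norm_zero, zero_mul]
        positivity

/-- **THIN**: the conditions on the walls give the cells for all `s` and the partitions of unity
for all finite sets -/
theorem exists_cells {W : Fin m → ℂ → ℝ} (hW : ∀ b, Continuous (W b)) (hC : G.Cond W) {η : ℝ}
    (hη : 0 < η) : ∃ (O : ι → Set ℂ) (C0 C1 δ0 : ℝ), 1 ≤ C0 ∧ 0 < C1 ∧ 0 < δ0 ∧ δ0 ≤ 1 ∧
      (∀ s : ℝ, 0 ≤ s → ∃ Q : Cells m ι (fun b z => s * W b z) (C0 * Real.exp (η * s)),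
        Q.O = O ∧ Q.S = G.S) ∧
      (∀ i, O i ⊆ G.U i) ∧ (∀ i, G.T.reg G.g 0 i ⊆ O i) ∧
      ∀ K : ℕ, ∀ A : Finset ℂ, A.card ≤ K →
        Nonempty (PU O (Metric.closedBall 0 G.R1) G.ie (C1 * (K + 1)) (δ0 / (K + 1)) A) := by
  obtain ⟨C0, hC0, hb⟩ := G.exists_bound
  obtain ⟨ε, hε, hε0, h1⟩ := G.exists_eps hW hC hη
  have he2 : 0 < ε / 2 := by positivity
  have he0 : ε / 2 ≤ G.ε0 := by linarith
  obtain ⟨C1, hC1, hP⟩ := exists_partition G.T G.g G.smooth he2 G.L_pos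
    (fun j z hz => G.der j z (hz.trans he0))
    (fun j x z hx hxz => G.lip j x z (hx.trans he0) hxz) G.ie (R1 := G.R1)
    (fun z hz i hi hc => G.ext z hz i hi (reg_mono he0 G.T i hc))
  have hLp := G.L_pos
  refine ⟨fun i => rgo G.g ε G.T i, C0, C1, min 1 (2 * (ε / 2) / 3 / G.L), hC0, hC1, by positivity,
    min_le_left _ _, fun s hs => ⟨G.cells hε hε0 hC0 hb hη h1 s hs, rfl, rfl⟩, ?_, ?_, ?_⟩
  · exact fun i z hz => G.reg_U i (reg_mono hε0 G.T i (rgo_subset_reg G.T i hz))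
  · exact fun i => reg_subset_rgo hε G.T i
  intro K A hA
  obtain ⟨θ, t1, t2, t3, t4, t5, t6, t7, t8, t9⟩ := hP K A hA
  have hK : (0 : ℝ) < K + 1 := by positivity
  have hK1 : (1 : ℝ) ≤ K + 1 := by
    have : (0 : ℝ) ≤ K := Nat.cast_nonneg K
    linarith
  refine ⟨{ θ := θ, smooth := t1, sum_one := t3, supp := ?_, bound := t6, const_out := ?_,
            sep := ?_, node := ?_, inf := ?_ }⟩
  · exact fun i => (t4 i).trans (reg_subset_rgo (by linarith) G.T i)
  · intro i z hz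
    exact t8 z (by simpa using hz) i
  · intro i a ha z hz
    refine t7 a ha z ?_ i
    rw [dist_eq_norm]
    refine lt_of_lt_of_le hz (le_min ?_ ?_)
    · calc min 1 (2 * (ε / 2) / 3 / G.L) / (K + 1) ≤ 1 / (K + 1) :=
            div_le_div_of_nonneg_right (min_le_left _ _) hK.le
        _ ≤ 1 := by rw [div_le_one hK]; exact hK1
    · calc min 1 (2 * (ε / 2) / 3 / G.L) / (K + 1) ≤ (2 * (ε / 2) / 3 / G.L) / (K + 1) :=
            div_le_div_of_nonneg_right (min_le_right _ _) hK.le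
        _ = 2 * (ε / 2) / (3 * (K + 1)) / G.L := by field_simp
  · intro a ha
    obtain ⟨i, _, h2, h3⟩ := t5 a ha
    refine ⟨i, fun i' => ?_⟩
    split_ifs with h
    · rw [h, h2]
    · exact h3 i' h
  · have h2 : ∀ᶠ z : ℂ in cocompact ℂ, G.R1 < ‖z‖ :=
      tendsto_norm_cocompact_atTop.eventually_gt_atTop G.R1
    filter_upwards [h2] with z hz i
    obtain ⟨h3, h4⟩ := t9 z hz
    split_ifs with h
    · rw [h, h3]
    · exact h4 i h

end WallData

end main

end Vale.Agent.P030.H265
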