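import Vale.Agent.P030.H265.ZsPat
import Vale.Agent.P030.H352.Disc

/-!
# P030, route N: flat matrices in arbitrary rows and coordinates (helper265)

`FlatM PP R` : everything that is used of the flat matrix.  `flatM_Pz` : the rows and coordinates of
`Flat.lean`.  `flatM_adm` : arbitrary real base change `(A, Q)` (helper352's `Bch`).
-/

open Set Filter Topology Matrix
open scoped ComplexConjugate

namespace Vale.Agent.P030.H265

open Vale.Agent.P030.AR Vale.Agent.P030.H580 Vale.Agent.P030.H639 Vale.Agent.P030.H352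

noncomputable section

/-- the closed upper half plane without the cusps -/
def Cup : Set ℂ := {z | 0 < z.im ∨ (z.im = 0 ∧ z.re ≠ 1 ∧ z.re ≠ 1 / 2 ∧ z.re ≠ 0)}

theorem Cup_sub : Cup ⊆ OmP := fun _ hz => mem_OmP_of hz

/-- a flat matrix with the reflection matrices `R` -/
structure FlatM (PP : ℂ → Matrix (Fin 8) (Fin 8) ℂ) (R : Fin 4 → Matrix (Fin 8) (Fin 8) ℂ) :
    Prop where
  adap : ∀ z ∈ OmP, Adap (PP z)
  diff : ∀ i j, DifferentiableOn ℂ (fun z => PP z i j) OmP
  strip : ∀ q, ∀ z ∈ Sq q, PP z = R q * cj (PP (conj z))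
  kne : ∀ z ∈ Cup, ∀ α β : ℂ, 0 ≤ (α * conj β).re → (α ≠ 0 ∨ β ≠ 0) → kF (PP z) α β ≠ 0

variable {X : Fin 8 → ℂ → Fin 8 → ℂ}

theorem flatM_Pz (hX : YD X) : FlatM (Pz X) RqC where
  adap := fun _ hz => Pz_adap hX hz
  diff := Pz_diff hX
  strip := fun q z hz => Pz_eq_mul hX hz
  kne := fun z hz α β h h0 => by
    have h1 := kap_ne hX (B := fun i j => if i = 6 ∧ j = 6 then α else
      if i = 6 ∧ j = 7 then β else 0) (by simpa using h) (by simpa using h0) hz
    simpa [kap] using h1

/-! ### arbitrary base change -/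

/-- the matrix of the flat vectors in the order `e a c d g h A0 A3` -/
def XM (X : Fin 8 → ℂ → Fin 8 → ℂ) (z : ℂ) : Matrix (Fin 8) (Fin 8) ℂ := fun i j => X i (yz z) j

theorem bup_XM (hX : YD X) {z : ℂ} (hz : z ∈ OmP) : BUp (XM X z) := by
  have hz' : yz z ∈ OmY := hz
  have h : ∀ i j k, (∀ T t : ℂ, gl0 T t i j = k) → XM X z i j = k := fun i j k hk =>
    hX.ent i j hk _ hz'
  constructor
  · intro i j hij
    exact h i j 0 fun T t => (bup_glc 0 T t).low i j hij
  · intro i j hij hi
    exact h i j _ fun T t => (bup_glc 0 T t).one i j hij hi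

theorem XM_diff (hX : YD X) (i j : Fin 8) : DifferentiableOn ℂ (fun z => XM X z i j) OmP :=
  (hX.diff i j).comp (by unfold yz; fun_prop) fun z hz => hz

theorem XM_strip (hX : YD X) {q : Fin 4} {z : ℂ} (hz : z ∈ Sq q) :
    XM X z = cj (Rf q) * cj (XM X (conj z)) := by
  ext i j
  rw [Matrix.mul_apply]
  simp only [cj_apply, XM, yz_conj]
  exact hX.strip q i j hz

/-- a real base change -/
structure RCh (A A' Q : Matrix (Fin 8) (Fin 8) ℂ) : Prop where
  bch : Bch A Q
  inv : A' * A = 1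
  realA : cj A = A
  realQ : cj Q = Q
  k : ∃ κ : ℂ, κ ≠ 0 ∧ A 6 6 = κ ∧ A 7 7 = κ ∧ A 6 7 = 0 ∧ A 7 6 = 0

theorem adm_K {A A' Q : Matrix (Fin 8) (Fin 8) ℂ} (h : RCh A A' Q) {κ : ℂ}
    (h66 : A 6 6 = κ) (h77 : A 7 7 = κ) (h67 : A 6 7 = 0) (h76 : A 7 6 = 0)
    {V : Matrix (Fin 8) (Fin 8) ℂ} (hV : BUp V) :
    adm A Q V 6 6 = κ * V 6 6 ∧ adm A Q V 7 6 = κ * V 7 6 := by
  have hA : ∀ i k : Fin 8, (i = 6 ∨ i = 7) → k < 6 → A i k = 0 := by
    intro i k hi hk
    refine h.bch.A0 i k ?_
    rcases hi with rfl | rfl <;> revert k <;> decide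
  have hV0 : ∀ i l : Fin 8, (i = 6 ∨ i = 7) → l < 6 → V i l = 0 := by
    intro i l hi hl
    refine hV.low i l ?_
    rcases hi with rfl | rfl <;> revert l <;> decide
  have key : ∀ i : Fin 8, (i = 6 ∨ i = 7) → adm A Q V i 6 = A i 6 * V 6 6 + A i 7 * V 7 6 := by
    intro i hi
    rw [adm_apply]
    rw [Finset.sum_eq_single 6]
    · rw [Finset.sum_eq_add 6 7 (by decide)]
      · rw [h.bch.Q66, mul_one, mul_one]
      · intro k _ hk
        have : k < 6 := by
          have := k.isLt
          omega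
        rw [hA i k hi this]
        ring
      · intro hh; exact absurd (Finset.mem_univ _) hh
      · intro hh; exact absurd (Finset.mem_univ _) hh
    · intro l _ hl
      by_cases hl6 : l < 6
      · refine Finset.sum_eq_zero fun k _ => ?_
        by_cases hk : k < 6
        · rw [hA i k hi hk]; ring
        · rw [hV0 k l (by omega) hl6]; ring
      · have : l = 7 := by omega
        subst this
        refine Finset.sum_eq_zero fun k _ => ?_
        rw [h.bch.Q76]; ring
    · intro hh; exact absurd (Finset.mem_univ _) hh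
  constructor
  · rw [key 6 (Or.inl rfl), h66, h67]; ring
  · rw [key 7 (Or.inr rfl), h77, h76]; ring

/-- **the flat matrix in arbitrary rows and coordinates** -/
theorem flatM_adm (hX : YD X) {A A' Q : Matrix (Fin 8) (Fin 8) ℂ} (h : RCh A A' Q) :
    FlatM (fun z => adm A Q (XM X z)) (fun q => A * cj (Rf q) * A') where
  adap := fun z hz => adap_adm h.bch (bup_XM hX hz)
  diff := fun i j => by
    simp only [adm_apply]
    refine DifferentiableOn.fun_sum fun l _ => DifferentiableOn.fun_sum fun k _ => ?_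
    exact ((XM_diff hX k l).const_mul _).mul_const _
  strip := fun q z hz => by
    have h1 : cj (adm A Q (XM X (conj z))) = A * cj (XM X (conj z)) * Q := by
      rw [adm, cj_mul, cj_mul, h.realA, h.realQ]
    rw [h1, adm, XM_strip hX hz]
    calc A * (cj (Rf q) * cj (XM X (conj z))) * Q
        = A * cj (Rf q) * (1 : Matrix (Fin 8) (Fin 8) ℂ) * cj (XM X (conj z)) * Q := by
          rw [Matrix.mul_one]
          simp only [Matrix.mul_assoc]
      _ = A * cj (Rf q) * (A' * A) * cj (XM X (conj z)) * Q := by rw [h.inv]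
      _ = A * cj (Rf q) * A' * (A * cj (XM X (conj z)) * Q) := by
          simp only [Matrix.mul_assoc]
  kne := fun z hz α β hr h0 => by
    obtain ⟨κ, hκ, h66, h77, h67, h76⟩ := h.k
    obtain ⟨e1, e2⟩ := adm_K h h66 h77 h67 h76 (bup_XM hX (Cup_sub hz))
    have h1 : (yz z).im < 0 ∨
        ((yz z).im = 0 ∧ (yz z).re ≠ -1 ∧ (yz z).re ≠ 0 ∧ (yz z).re ≠ 1) := by
      rw [yz_re, yz_im]
      rcases hz with h | ⟨h0, h1, h2, h3⟩
      · left; linarith
      · right
        refine ⟨by rw [h0]; ring, fun h => h1 (by linarith), fun h => h2 (by linarith),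
          fun h => h3 (by linarith)⟩
    have h2 := hX.kpos _ h1
    have h3 := H3.KPos.comb_ne_of_pos h2 hr h0
    have h4 : kF (adm A Q (XM X z)) α β = κ * (α * X 6 (yz z) 6 + β * X 7 (yz z) 6) := by
      rw [kF, e1, e2, XM, XM]
      ring
    rw [h4]
    exact mul_ne_zero hκ h3

end

end Vale.Agent.P030.H265
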