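import Vale.Agent.P030.H265.TopF
import Vale.Agent.P030.AR.NGen
import Vale.Agent.P030.H336.Tab1

/-!
# P030, route N: frames and flat patterns over an arbitrary flat matrix, from `Cf` data (helper265)

`frsM` = helper991's `Frs` from `FlatM PP R` and a table `fr : Fin N → FrD Cf`; `hI_M`, `hR_M` = the
two flat fields of `GPat` by helper336's pattern program; `rel q` = the reflection matrices as
`Cf` lists.
-/

open Set Filter Topology Matrix
open scoped ComplexConjugate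

namespace Vale.Agent.P030.H265

open Vale.Agent.P030.AR Vale.Agent.P030.H580 Vale.Agent.P030.H152
open Vale.Agent.P030.H124 Vale.Agent.P030.H336
open Vale.Agent.P030.H639 (cj cj_apply frm_cj kF_cj adap_cj)

noncomputable section

variable {PP : ℂ → Matrix (Fin 8) (Fin 8) ℂ} {R : Fin 4 → Matrix (Fin 8) (Fin 8) ℂ} {N : ℕ}

/-- admissible `K`-vectors -/
def KL (k : Cf × Cf) : Prop :=
  0 ≤ (cv 0 k.1 * conj (cv 0 k.2)).re ∧ (cv 0 k.1 ≠ 0 ∨ cv 0 k.2 ≠ 0)

theorem cstK_toB {F : FrD Cf} (hF : KL F.kl) : CstK (toB cfO (cv 0) F) where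
  cst := cst_toB _ _ _
  re := by
    rw [toB_six_six, toB_six_seven]
    exact hF.1
  ne := by
    rw [toB_six_six, toB_six_seven]
    exact hF.2

/-- **the frames** -/
def frsM (h : FlatM PP R) (fr : Fin N → FrD Cf) (hk : ∀ k, KL (fr k).kl) : Frs N where
  U := fun k => UF PP (Bt fr k)
  isOpen_U := fun k => isOpen_UF h _
  mem := fun k _ hz => mem_UF h (cstK_toB (hk k)) hz
  S := fun k z => frm (PP z) (Bt fr k)
  uni := fun k z hz => frm_unitri (h.adap z hz.1) (cst_Bt fr k)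
  hol := fun k b c => frmP_diff h (Bt fr k) b c

theorem kF_U {F : FrD Cf} {z : ℂ} (hz : z ∈ UF PP (toB cfO (cv 0) F)) :
    kF (PP z) (cv 0 F.kl.1) (cv 0 F.kl.2) ≠ 0 := by
  have := hz.2
  rwa [toB_six_six, toB_six_seven] at this

theorem kF_U' {F : FrD Cf} {z : ℂ} (hz : conj z ∈ UF PP (toB cfO (cv 0) F)) :
    kF (cj (PP (conj z))) (cv 0 (cjD F).kl.1) (cv 0 (cjD F).kl.2) ≠ 0 := by
  have h1 := kF_U hz
  change kF _ (cv 0 F.kl.1.cj) (cv 0 F.kl.2.cj) ≠ 0
  rw [cv_cj, cv_cj, kF_cj]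
  exact (map_ne_zero _).2 h1

theorem one_rel (i j : Fin 8) : cv 0 (get cfO (relI.getD i []) j) =
    (1 : Matrix (Fin 8) (Fin 8) ℂ) i j := congrFun (congrFun (relQ_val 2 0) i) j

/-- **field `hI`** -/
theorem hI_M (h : FlatM PP R) (fr : Fin N → FrD Cf) (hk : ∀ k, KL (fr k).kl) (k k' : Fin N)
    (z : ℂ) (hz : z ∈ (frsM h fr hk).U k) (hz' : z ∈ (frsM h fr hk).U k') (b c : Fin 8)
    (hn : ¬ patt cfO (fr k) (fr k') relI b c = true) :
    ((frsM h fr hk).S k z b ᵥ* ((frsM h fr hk).S k' z)⁻¹) c = 0 := by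
  refine patt_sound (ev_cv 0) (h.adap z hz.1) (fun i j => ?_) (kF_U hz) (kF_U hz')
    (by simpa using hn)
  simp only [one_rel]
  rw [← Matrix.mul_apply, Matrix.one_mul]

/-- **field `hR`** -/
theorem hR_M (h : FlatM PP R) (fr : Fin N → FrD Cf) (hk : ∀ k, KL (fr k).kl)
    {rel : Fin 4 → List (List Cf)}
    (hrel : ∀ q (i j : Fin 8), cv 0 (get cfO ((rel q).getD i []) j) = R q i j) (k : Fin N)
    (q : Fin 4) (z : ℂ) (hq : z ∈ Sq q) (hz : z ∈ (frsM h fr hk).U k)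
    (hz' : conj z ∈ (frsM h fr hk).U k) (b c : Fin 8)
    (hn : ¬ patt cfO (fr k) (cjD (fr k)) (rel q) b c = true) :
    ((frsM h fr hk).S k z b ᵥ* (((frsM h fr hk).S k (conj z)).map conj)⁻¹) c = 0 := by
  change (frm (PP z) (Bt fr k) b ᵥ* (cj (frm (PP (conj z)) (toB cfO (cv 0) (fr k))))⁻¹) c = 0
  rw [← frm_cj, ← toB_cjD]
  refine patt_sound (ev_cv 0) (adap_cj (h.adap _ hz'.1)) (fun i j => ?_) (kF_U hz) (kF_U' hz')
    (by simpa using hn)
  simp only [hrel]
  rw [← Matrix.mul_apply, h.strip q z hq]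

/-- the admissible `K`-vectors of the tables -/
theorem KL_A0 : KL (cu, cz) := by
  constructor
  · simp [cv, cz, Cf.val_zero]
  · left
    rw [cv, Cf.val_one]
    exact one_ne_zero

theorem cv_cI (n : ℤ) (d : ℕ) : cv 0 (cI n d) = n * Complex.I / ((d - 1 : ℕ) + 1) := by
  simp [cv, cI, Cf.val_def, H124.evL, H124.Tm.ev]

theorem KL_I (n : ℤ) (d : ℕ) : KL (cI n d, cu) := by
  have h1 : cv 0 cu = 1 := Cf.val_one
  constructor
  · rw [h1, map_one, mul_one, cv_cI]
    have : ((n : ℂ) * Complex.I / (((d - 1 : ℕ) : ℂ) + 1)).re = 0 := by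
      have e : ((n : ℂ) * Complex.I / (((d - 1 : ℕ) : ℂ) + 1)) =
          (((n : ℝ) / (((d - 1 : ℕ) : ℝ) + 1) : ℝ) : ℂ) * Complex.I := by
        push_cast
        ring
      rw [e, Complex.re_ofReal_mul, Complex.I_re, mul_zero]
    rw [this]
  · right
    rw [h1]
    exact one_ne_zero

theorem KL_I' (n : ℤ) (d : ℕ) : KL (cu, cI n d) := by
  have h1 : cv 0 cu = 1 := Cf.val_one
  constructor
  · rw [h1, one_mul, cv_cI]
    have : (conj ((n : ℂ) * Complex.I / (((d - 1 : ℕ) : ℂ) + 1))).re = 0 := by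
      have e : ((n : ℂ) * Complex.I / (((d - 1 : ℕ) : ℂ) + 1)) =
          (((n : ℝ) / (((d - 1 : ℕ) : ℝ) + 1) : ℝ) : ℂ) * Complex.I := by
        push_cast
        ring
      rw [e, Complex.conj_re, Complex.re_ofReal_mul, Complex.I_re, mul_zero]
    rw [this]
  · left
    rw [h1]
    exact one_ne_zero

theorem KL_A3 : KL (cz, cu) := by
  have h1 : cv 0 cu = 1 := Cf.val_one
  constructor
  · rw [h1, cv, Cf.val_zero, zero_mul, Complex.zero_re]
  · right
    rw [h1]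
    exact one_ne_zero

end

end Vale.Agent.P030.H265
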