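import Vale.Agent.P030.H265.TopF
import Vale.Agent.P030.AR.NStar

/-!
# P030, route N: the top theorem over an arbitrary flat matrix (helper265)

Copy of helper991's `FPat`, `FPat.pat`, `stAR_N` with `Pz X`, `RqC`, `colY` replaced by an arbitrary
`FlatM PP R` and arbitrary coordinates `v ↦ v ᵥ* Q`; used for tables with another order of the
levels.  The patterns are stated as vanishing of the transition entries.
-/

open Matrix Set Filter Topology
open Vale.Agent.P030.H580 Vale.Agent.P030.H152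
open Vale.Agent.P030.H866 (Tot Sc DetB Loc stAR_of_det sigEquiv)
open Vale.Agent.P030.H905 (Pot WtP E0P nodes_boundP)
open Vale.Agent.P030.H639 (cj cj_apply)
open scoped ComplexConjugate

namespace Vale.Agent.P030.H265

open Vale.Agent.P030.AR Vale.Agent.P030.T

noncomputable section

variable {PP : ℂ → Matrix (Fin 8) (Fin 8) ℂ} {R : Fin 4 → Matrix (Fin 8) (Fin 8) ℂ}
variable {N n : ℕ}

/-- the top data -/
def topQ (h : FlatM PP R) (t : GTab N n) (d : DiscPk) : TopN N n 8 where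
  TU := t.TU
  w := t.w
  ρ := t.ρ
  ρ_pos := t.ρ_pos
  s01 := t.s01
  s12 := t.s12
  s3 := t.s3
  Uu := fun k => UF PP (t.B k)
  open_u := fun k => isOpen_UF h (t.B k)
  reg_u := fun k z h1 h2 _ => mem_UF h ⟨t.cst k, t.kl k, t.kl0 k⟩ (mem_Cup t.ρ_pos h1 h2)
  Su := fun k z => frm (PP z) (t.B k)
  uni_u := fun k z hz => frm_unitri (h.adap z hz.1) (t.cst k)
  hol_u := fun k b c => frmP_diff h (t.B k) b c
  Ud := VZ
  open_d := isOpen_VZ
  reg_d := t.disc_VZ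
  ε1 := 1 / 2
  ε1_pos := by norm_num
  ε1_lt := by norm_num
  reg_3 := t.out_VZ
  Sd := d.S
  uni_d := d.uni
  hol_d := d.hol
  lim := d.lim

/-- the zero patterns -/
structure FPatQ (PP : ℂ → Matrix (Fin 8) (Fin 8) ℂ) (t : GTab N n) (d : DiscPk) where
  /-- two upper cells -/
  pI : Fin N → Fin N → Fin 8 → Fin 8 → Prop
  hI : ∀ k k' b c, ¬ pI k k' b c → ∀ z ∈ UF PP (t.B k), z ∈ UF PP (t.B k') →
    (frm (PP z) (t.B k) b ᵥ* (frm (PP z) (t.B k'))⁻¹) c = 0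
  /-- upper cell and its mirror image on the interval `q` -/
  pR : Fin N → Fin 4 → Fin 8 → Fin 8 → Prop
  hR : ∀ k q b c, ¬ pR k q b c → ∀ z ∈ Sq q, z ∈ UF PP (t.B k) → conj z ∈ UF PP (t.B k) →
    (frm (PP z) (t.B k) b ᵥ* (cj (frm (PP (conj z)) (t.B k)))⁻¹) c = 0
  /-- cusp circles : `kc c` = the cell around the disc -/
  kc : Fin 4 → Fin N
  pC : Fin 4 → Fin 8 → Fin 8 → Prop
  up : ∀ c z, z ∈ VZ c → z ∈ UF PP (t.B (kc c)) → ∀ b b', ¬ pC c b b' →
    (frm (PP z) (t.B (kc c)) b ᵥ* (d.S c z)⁻¹) b' = 0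
  dn : ∀ c z, z ∈ VZ c → z ∈ UF PP (t.B (kc c)) → ∀ b b', ¬ pC c b b' →
    (d.S c z b ᵥ* (frm (PP z) (t.B (kc c)))⁻¹) b' = 0

/-- the patterns in the form of `TopN.cond` -/
def FPatQ.pat {t : GTab N n} {d : DiscPk} (Q : FPatQ PP t d) (h : FlatM PP R) :
    (topQ h t d).Pat where
  pR := fun z k b c => Q.pR k (FPat.qz z) b c
  pI := Q.pI
  pC := fun c k b b' => k = Q.kc c → Q.pC c b b'
  hR := by
    intro z hz hi k hk b c hn
    filter_upwards [FPat.eventually_Sq (t.real_ne hz hi)] with z' hz' h1 h2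
    exact Q.hR k (FPat.qz z) b c hn z' hz' h1 h2
  hI := by
    intro z hz hi k k' hk hk' b c hn
    exact Eventually.of_forall fun z' h1 h2 => Q.hI k k' b c hn z' h1 h2
  hC1 := by
    intro c z _ _ k _ b b' hn
    rw [Classical.not_imp] at hn
    obtain ⟨rfl, hn⟩ := hn
    exact Eventually.of_forall fun z' h1 h2 => Q.up c z' h2 h1 b b' hn
  hC2 := by
    intro c z _ _ k _ b b' hn
    rw [Classical.not_imp] at hn
    obtain ⟨rfl, hn⟩ := hn
    exact Eventually.of_forall fun z' h1 h2 => Q.dn c z' h2 h1 b b' hn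
  hC3 := by
    intro c z _ _ k _ b b' hn
    rw [Classical.not_imp] at hn
    obtain ⟨rfl, hn⟩ := hn
    refine Eventually.of_forall fun z' h1 h2 => ?_
    have h2' : conj z' ∈ VZ c := conj_mem_VZ.2 h2
    have h3 := Q.up c (conj z') h2' h1 b b' hn
    have h4 := d.real c (conj z') h2'
    rw [Complex.conj_conj] at h4
    change TopN.tr ((frm (PP (conj z')) (t.B (Q.kc c))).map conj) (d.S c z') b b' = 0
    rw [h4, TopN.tr_conj (d.uni c _ h2').isUnit]
    unfold TopN.tr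
    rw [h3, map_zero]
  hC4 := by
    intro c z _ _ k _ b b' hn
    rw [Classical.not_imp] at hn
    obtain ⟨rfl, hn⟩ := hn
    refine Eventually.of_forall fun z' h1 h2 => ?_
    have h2' : conj z' ∈ VZ c := conj_mem_VZ.2 h2
    have h3 := Q.dn c (conj z') h2' h1 b b' hn
    have h4 := d.real c (conj z') h2'
    rw [Complex.conj_conj] at h4
    change TopN.tr (d.S c z') ((frm (PP (conj z')) (t.B (Q.kc c))).map conj) b b' = 0
    have hu : Unitri (frm (PP (conj z')) (t.B (Q.kc c))) := by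
      have h1' : conj z' ∈ UF PP (t.B (Q.kc c)) := h1
      exact frm_unitri (h.adap _ h1'.1) (t.cst _)
    rw [h4, TopN.tr_conj hu.isUnit]
    unfold TopN.tr
    rw [h3, map_zero]

/-- the totals of the 17 groups in the rows of the disc frames: `Lv g b` = the total of the group
`g` may have a component on the level `b` -/
structure TotPkQ (Qm : Matrix (Fin 8) (Fin 8) ℂ) (d : DiscPk) {P : Par} {r : Gp → ℝ}
    (T : Tot P r) where
  Lv : Gp → Fin 8 → Prop
  ex : ∀ g, ∃ B : ℝ, ∀ t : ℂ, ‖t‖ = r g → ∃ y : Fin 8 → ℂ,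
    (∑ g', ((T.al g g' : ℝ) : ℂ) • tupC g' t) ᵥ* Qm = y ᵥ* d.S g.cusp (Sc g.cusp t) ∧
      ∀ b, ‖y b‖ ≤ B ∧ (y b = 0 ∨ Lv g b)

/-- **route N, top theorem, arbitrary coordinates** -/
theorem stAR_Q (P : Par) (c0 : ℕ) (hcard : ∑ g : Gp, P.ht g = 8 * P.D0)
    (hD0 : 0 < P.D0) (r : Gp → ℝ) (hr : ∀ g, 0 < r g) (hr1 : ∀ g, r g < 1) (T : Tot P r)
    (h : FlatM PP R) {Qm : Matrix (Fin 8) (Fin 8) ℂ} (hQm : Qm.det ≠ 0)
    (t : GTab N n) (d : DiscPk) (Q : FPatQ PP t d)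
    (hrad : ∀ g, Rad t.ρ g.cusp (r g)) (K : TotPkQ Qm d T)
    (μ : Fin 8 → Pot) (γ : Fin 8 → ℝ)
    (hsym : ∀ b z, WtP (fun _ => P.D0) μ γ b (conj z) = WtP (fun _ => P.D0) μ γ b z)
    (n1 : ∀ z ∈ Dom t.ρ, z.im = 0 → ∀ b c, Q.pR (can (fun j => (t.w j).fn) t.TU z) (FPat.qz z) b c →
      WtP (fun _ => P.D0) μ γ c z ≤ WtP (fun _ => P.D0) μ γ b z)
    (n2 : Edges (fun j => (t.w j).fn)
      (fun k k' z => ∀ b c, (Q.pI k k' b c ∨ Q.pI k' k b c) →
        WtP (fun _ => P.D0) μ γ c z ≤ WtP (fun _ => P.D0) μ γ b z)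
      {z | 0 ≤ z.im ∧ z ∈ Dom t.ρ} t.TU)
    (n3 : ∀ c z, ‖z - cen c‖ = t.ρ c → 0 ≤ z.im →
      can (fun j => (t.w j).fn) t.TU z = Q.kc c ∧ ∀ b b', Q.pC c b b' →
        WtP (fun _ => P.D0) μ γ b' z ≤ WtP (fun _ => P.D0) μ γ b z)
    (ω : Gp → ℝ)
    (n4 : ∀ g, ∀ s : ℂ, ‖s‖ = r g → ∀ b, K.Lv g b →
      WtP (fun _ => P.D0) μ γ b (Sc g.cusp s) ≤ ω g) :
    StAR P c0 (E0P (fun _ => P.D0) μ γ - Vale.Agent.P030.H866.Qm P r ω) := by
  set W := WtP (fun _ => P.D0) μ γ with hW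
  have hC : (topQ h t d).sharp.toWD.Cond W := by
    refine (topQ h t d).cond (Q.pat h) hsym ?_ n2 ?_
    · intro z hz hi b c hp
      exact n1 z hz hi b c hp
    · intro c z hz hi b b' hp
      obtain ⟨h1, h2⟩ := n3 c z hz hi
      exact h2 b b' (hp h1)
  have hWc : ∀ b, Continuous (W b) := fun b =>
    (continuous_const.mul (μ b).cont).add continuous_const
  refine stAR_of_det P c0 hcard hD0 r hr hr1 T Qm.transpose
    (by rw [Matrix.det_transpose]; exact hQm) (topQ h t d).sharp.toWD hWc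
    (detB_of_pot _ P.D0 μ γ hC) ω ?_
  intro g
  obtain ⟨B, hB⟩ := K.ex g
  refine ⟨B, fun s hs i hi => ?_⟩
  have hic : i = .cu g.cusp := by
    refine only_cu (topQ h t d) (c := g.cusp) ?_ hi
    by_cases hc : g.cusp = 3
    · rw [if_pos hc, hc]
      have h := hrad g
      rw [hc] at h
      exact Sc_out (topQ _ t d) (hr g) h hs
    · rw [if_neg hc]
      exact Sc_in (topQ h t d) hc (hr g) (hr1 g) (hrad g) hs
  subst hic
  obtain ⟨y, hy, hb⟩ := hB s hs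
  refine ⟨y, ?_, fun b => ⟨(hb b).1, (hb b).2.imp id fun h => n4 g s hs b h⟩⟩
  rw [Matrix.mulVec_transpose]
  exact hy

end

end Vale.Agent.P030.H265
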