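import Vale.Agent.P030.H265.FlatQ
import Vale.Agent.P030.AR.NTop

/-!
# P030, route N: helper991's `TopN` from a flat matrix, a frame table and four cusp frames
(helper265)

Everything is a parameter: the flat matrix `PP` (`FlatM PP R`), the constants `B k` of the upper
cells, the upper tree, the walls, the radii and the frames of the discs.
-/

open Set Filter Topology Matrix
open scoped ComplexConjugate

namespace Vale.Agent.P030.H265

open Vale.Agent.P030.AR Vale.Agent.P030.H580 Vale.Agent.P030.H639 Vale.Agent.P030.H152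

noncomputable section

variable {PP : ℂ → Matrix (Fin 8) (Fin 8) ℂ} {R : Fin 4 → Matrix (Fin 8) (Fin 8) ℂ}

/-- the domain of an upper cell -/
def UF (PP : ℂ → Matrix (Fin 8) (Fin 8) ℂ) (B : Matrix (Fin 8) (Fin 8) ℂ) : Set ℂ :=
  {z | z ∈ OmP ∧ kF (PP z) (B 6 6) (B 6 7) ≠ 0}

theorem kF_diff (h : FlatM PP R) (α β : ℂ) : DifferentiableOn ℂ (fun z => kF (PP z) α β) OmP :=
  ((h.diff 6 6).const_mul _).add ((h.diff 7 6).const_mul _)

theorem isOpen_UF (h : FlatM PP R) (B : Matrix (Fin 8) (Fin 8) ℂ) : IsOpen (UF PP B) :=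
  (kF_diff h _ _).continuousOn.isOpen_inter_preimage isOpen_OmP isOpen_compl_singleton

theorem frmP_diff (h : FlatM PP R) (B : Matrix (Fin 8) (Fin 8) ℂ) (b c : Fin 8) :
    DifferentiableOn ℂ (fun z => frm (PP z) B b c) (UF PP B) := by
  have hsub : UF PP B ⊆ OmP := fun z hz => hz.1
  by_cases hb : b < 6
  · simp only [frm_lt hb]
    exact DifferentiableOn.fun_sum fun i _ => ((h.diff i c).mono hsub).const_mul _
  · have : b = 6 ∨ b = 7 := by omega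
    rcases this with rfl | rfl
    · simp only [frm_six, Pi.add_apply, Pi.smul_apply, smul_eq_mul]
      refine (differentiableOn_const _).add (DifferentiableOn.mul_const ?_ _)
      refine DifferentiableOn.div ?_ ((kF_diff h _ _).mono hsub) fun z hz => hz.2
      exact (((h.diff 6 7).const_mul _).add ((h.diff 7 7).const_mul _)).mono hsub
    · simp only [frm_seven]
      exact differentiableOn_const _

/-- the constants of a cell with an admissible `K`-line -/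
structure CstK (B : Matrix (Fin 8) (Fin 8) ℂ) : Prop where
  cst : Cst B
  re : 0 ≤ (B 6 6 * conj (B 6 7)).re
  ne : B 6 6 ≠ 0 ∨ B 6 7 ≠ 0

theorem mem_UF (h : FlatM PP R) {B : Matrix (Fin 8) (Fin 8) ℂ} (hB : CstK B) {z : ℂ}
    (hz : z ∈ Cup) : z ∈ UF PP B :=
  ⟨Cup_sub hz, h.kne z hz _ _ hB.re hB.ne⟩

/-- a point of the closed upper half plane outside of the discs is not a cusp -/
theorem mem_Cup {ρ : Fin 4 → ℝ} (hρ : ∀ c, 0 < ρ c) {z : ℂ} (hz : z ∈ Dom ρ) (him : 0 ≤ z.im) :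
    z ∈ Cup := by
  rcases him.lt_or_eq with h | h
  · exact Or.inl h
  · obtain ⟨h0, h1, h2, _⟩ := hz
    refine Or.inr ⟨h.symm, fun hr => ?_, fun hr => ?_, fun hr => ?_⟩
    · have e : z - 1 = 0 := by apply Complex.ext <;> simp [hr, ← h]
      rw [e, norm_zero] at h0
      linarith [hρ 0]
    · have e : z - 1 / 2 = 0 := by apply Complex.ext <;> simp [hr, ← h]
      rw [e, norm_zero] at h1
      linarith [hρ 1]
    · have e : z = 0 := by apply Complex.ext <;> simp [hr, ← h]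
      rw [e, norm_zero] at h2
      linarith [hρ 2]

/-- a real point of the domain lies in exactly one strip -/
theorem real_mem_Sq {ρ : Fin 4 → ℝ} (hρ : ∀ c, 0 < ρ c) {z : ℂ} (hz : z ∈ Dom ρ)
    (him : z.im = 0) : ∃ q, z ∈ Sq q := by
  have h1 := mem_Cup hρ hz him.ge
  have h2 : conj z = z := Complex.conj_eq_iff_im.2 him
  exact mem_both (Cup_sub h1) (by rw [h2]; exact Cup_sub h1)

theorem isOpen_Sq (q : Fin 4) : IsOpen (Sq q) :=
  (isOpen_Jv q).preimage (by unfold yz; fun_prop)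

/-- the frames of the four discs -/
structure DiscF where
  Ud : Fin 4 → Set ℂ
  open_d : ∀ c, IsOpen (Ud c)
  Sd : Fin 4 → ℂ → Matrix (Fin 8) (Fin 8) ℂ
  uni_d : ∀ c, ∀ z ∈ Ud c, Unitri (Sd c z)
  hol_d : ∀ c b b', DifferentiableOn ℂ (fun z => Sd c z b b') (Ud c)
  lim : ∀ b, ∃ c : Fin 8 → ℂ, Tendsto (fun z => Sd 3 z b) (cocompact ℂ) (𝓝 c)

/-- the geometry of the table -/
structure GeoF (N n : ℕ) where
  TU : WTree (Fin n) (Fin N)
  w : Fin n → Wall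
  ρ : Fin 4 → ℝ
  ρ_pos : ∀ c, 0 < ρ c
  s01 : ρ 0 + ρ 1 < 1 / 2
  s12 : ρ 1 + ρ 2 < 1 / 2
  s3 : 1 < ρ 3

/-- **helper991's data** -/
def mkTop {N n : ℕ} (h : FlatM PP R) (B : Fin N → Matrix (Fin 8) (Fin 8) ℂ)
    (hB : ∀ k, CstK (B k)) (G : GeoF N n) (D : DiscF)
    (reg_d : ∀ c, c ≠ 3 → ∀ z, ‖z - cen c‖ ≤ G.ρ c → z ∈ D.Ud c)
    (ε1 : ℝ) (hε : 0 < ε1) (hε1 : ε1 < 1)
    (reg_3 : ∀ z : ℂ, G.ρ 3 ^ 2 - ε1 ≤ ‖z - 1 / 2‖ ^ 2 → z ∈ D.Ud 3) : TopN N n 8 where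
  TU := G.TU
  w := G.w
  ρ := G.ρ
  ρ_pos := G.ρ_pos
  s01 := G.s01
  s12 := G.s12
  s3 := G.s3
  Uu := fun k => UF PP (B k)
  open_u := fun k => isOpen_UF h (B k)
  reg_u := fun k z hz him _ => mem_UF h (hB k) (mem_Cup G.ρ_pos hz him)
  Su := fun k z => frm (PP z) (B k)
  uni_u := fun k z hz => frm_unitri (h.adap z hz.1) (hB k).cst
  hol_u := fun k b c => frmP_diff h (B k) b c
  Ud := D.Ud
  open_d := D.open_d
  reg_d := reg_d
  ε1 := ε1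
  ε1_pos := hε
  ε1_lt := hε1
  reg_3 := reg_3
  Sd := D.Sd
  uni_d := D.uni_d
  hol_d := D.hol_d
  lim := D.lim

/-- the patterns of the table: `pR q k` for the real interval `q`, `pI k k'` for interior walls,
`pC c` for the disc `c` against its cell `kc c` -/
structure PatF {N : ℕ} (PP : ℂ → Matrix (Fin 8) (Fin 8) ℂ) (B : Fin N → Matrix (Fin 8) (Fin 8) ℂ)
    (D : DiscF) where
  pR : Fin 4 → Fin N → Fin 8 → Fin 8 → Prop
  pI : Fin N → Fin N → Fin 8 → Fin 8 → Prop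
  kc : Fin 4 → Fin N
  pC : Fin 4 → Fin 8 → Fin 8 → Prop
  hR : ∀ q k b c, ¬ pR q k b c → ∀ z ∈ Sq q, z ∈ UF PP (B k) → conj z ∈ UF PP (B k) →
    (frm (PP z) (B k) b ᵥ* (cj (frm (PP (conj z)) (B k)))⁻¹) c = 0
  hI : ∀ k k' b c, ¬ pI k k' b c → ∀ z ∈ UF PP (B k), z ∈ UF PP (B k') →
    (frm (PP z) (B k) b ᵥ* (frm (PP z) (B k'))⁻¹) c = 0
  hC1 : ∀ c b b', ¬ pC c b b' → ∀ z ∈ UF PP (B (kc c)), z ∈ D.Ud c →
    (frm (PP z) (B (kc c)) b ᵥ* (D.Sd c z)⁻¹) b' = 0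
  hC2 : ∀ c b b', ¬ pC c b b' → ∀ z ∈ UF PP (B (kc c)), z ∈ D.Ud c →
    (D.Sd c z b ᵥ* (frm (PP z) (B (kc c)))⁻¹) b' = 0
  hC3 : ∀ c b b', ¬ pC c b b' → ∀ z, conj z ∈ UF PP (B (kc c)) → z ∈ D.Ud c →
    (cj (frm (PP (conj z)) (B (kc c))) b ᵥ* (D.Sd c z)⁻¹) b' = 0
  hC4 : ∀ c b b', ¬ pC c b b' → ∀ z, conj z ∈ UF PP (B (kc c)) → z ∈ D.Ud c →
    (D.Sd c z b ᵥ* (cj (frm (PP (conj z)) (B (kc c))))⁻¹) b' = 0

/-- helper991's pattern -/
def mkPat {N n : ℕ} (h : FlatM PP R) (B : Fin N → Matrix (Fin 8) (Fin 8) ℂ)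
    (hB : ∀ k, CstK (B k)) (G : GeoF N n) (D : DiscF)
    (reg_d : ∀ c, c ≠ 3 → ∀ z, ‖z - cen c‖ ≤ G.ρ c → z ∈ D.Ud c)
    (ε1 : ℝ) (hε : 0 < ε1) (hε1 : ε1 < 1)
    (reg_3 : ∀ z : ℂ, G.ρ 3 ^ 2 - ε1 ≤ ‖z - 1 / 2‖ ^ 2 → z ∈ D.Ud 3) (Q : PatF PP B D) :
    (mkTop h B hB G D reg_d ε1 hε hε1 reg_3).Pat where
  pR := fun z k b c => ∀ q, z ∈ Sq q → Q.pR q k b c
  pI := Q.pI
  pC := fun c k b b' => k = Q.kc c → Q.pC c b b'
  hR := by
    intro z _ _ k _ b c hp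
    push Not at hp
    obtain ⟨q, hq, hp⟩ := hp
    filter_upwards [(isOpen_Sq q).mem_nhds hq] with z' h1 h2 h3
    exact Q.hR q k b c hp z' h1 h2 h3
  hI := by
    intro z _ _ k k' _ _ b c hp
    exact Eventually.of_forall fun z' h1 h2 => Q.hI k k' b c hp z' h1 h2
  hC1 := by
    intro c z _ _ k _ b b' hp
    push Not at hp
    obtain ⟨rfl, hp⟩ := hp
    exact Eventually.of_forall fun z' h1 h2 => Q.hC1 c b b' hp z' h1 h2
  hC2 := by
    intro c z _ _ k _ b b' hp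
    push Not at hp
    obtain ⟨rfl, hp⟩ := hp
    exact Eventually.of_forall fun z' h1 h2 => Q.hC2 c b b' hp z' h1 h2
  hC3 := by
    intro c z _ _ k _ b b' hp
    push Not at hp
    obtain ⟨rfl, hp⟩ := hp
    exact Eventually.of_forall fun z' h1 h2 => Q.hC3 c b b' hp z' h1 h2
  hC4 := by
    intro c z _ _ k _ b b' hp
    push Not at hp
    obtain ⟨rfl, hp⟩ := hp
    exact Eventually.of_forall fun z' h1 h2 => Q.hC4 c b b' hp z' h1 h2

/-- **condition (C) for the table** from the inequalities on the pieces of the closed upper half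
plane -/
theorem cond_table {N n : ℕ} (h : FlatM PP R) (B : Fin N → Matrix (Fin 8) (Fin 8) ℂ)
    (hB : ∀ k, CstK (B k)) (G : GeoF N n) (D : DiscF)
    (reg_d : ∀ c, c ≠ 3 → ∀ z, ‖z - cen c‖ ≤ G.ρ c → z ∈ D.Ud c)
    (ε1 : ℝ) (hε : 0 < ε1) (hε1 : ε1 < 1)
    (reg_3 : ∀ z : ℂ, G.ρ 3 ^ 2 - ε1 ≤ ‖z - 1 / 2‖ ^ 2 → z ∈ D.Ud 3) (Q : PatF PP B D)
    {W : Fin 8 → ℂ → ℝ} (hsym : ∀ b z, W b (conj z) = W b z)
    (n1 : ∀ q k, ∀ z ∈ Dom G.ρ, z.im = 0 → z ∈ Sq q → can (fun j => (G.w j).fn) G.TU z = k →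
      ∀ b c, Q.pR q k b c → W c z ≤ W b z)
    (n2 : Edges (fun j => (G.w j).fn)
      (fun k k' z => ∀ b c, (Q.pI k k' b c ∨ Q.pI k' k b c) → W c z ≤ W b z)
      {z | 0 ≤ z.im ∧ z ∈ Dom G.ρ} G.TU)
    (n3 : ∀ c z, ‖z - cen c‖ = G.ρ c → 0 ≤ z.im → can (fun j => (G.w j).fn) G.TU z = Q.kc c ∧
      ∀ b b', Q.pC c b b' → W b' z ≤ W b z) :
    (mkTop h B hB G D reg_d ε1 hε hε1 reg_3).sharp.toWD.Cond W := by
  refine TopN.cond _ (mkPat h B hB G D reg_d ε1 hε hε1 reg_3 Q) hsym ?_ n2 ?_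
  · intro z hz him b c hp
    obtain ⟨q, hq⟩ := real_mem_Sq G.ρ_pos hz him
    exact n1 q _ z hz him hq rfl b c (hp q hq)
  · intro c z hz him b b' hp
    obtain ⟨h1, h2⟩ := n3 c z hz him
    exact h2 b b' (hp h1)

end

end Vale.Agent.P030.H265
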