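import Vale.Agent.P030.H208.Join
import Vale.Agent.P030.H336.Incl
import Vale.Agent.P030.H866.TotR
import Vale.Agent.P030.H284.V1Om
import Vale.Agent.P030.H476.V1.All
import Vale.Agent.P030.H250.Chunk
import Vale.Agent.P030.H225.RefV
import Vale.Agent.P030.H60.ExV

/-!
# P030, route N: the archimedean half for the certificate v1b, from the wall pieces (helper265)

All parts of `H208.stAF_join` for the literal table `V1.tab`, except for the comparisons on the
literal wall pieces.
-/

open scoped ComplexConjugate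

namespace Vale.Agent.P030.H265.V1F

open Vale.Agent.P030.T
open Vale.Agent.P030.H579 (parA)
open Vale.Agent.P030.H250 (PP GeoN)

/-- the flat vectors exist -/
theorem exists_X : ∃ X, YD X := by
  obtain ⟨X, hX, -⟩ := exists_YD H225.refV H60.ExV.isV_VV
  exact ⟨X, hX⟩

theorem mtch_ok : H462.LK.mtch H476.VE.V1.S H476.VE.V1.A V1.tab.toTab.ents = true := by
  decide +kernel

theorem sym_ok : H462.PT.symOk V1.tab.toTab = true := by decide +kernel

theorem L_pos : 0 < V1.tab.toTab.L := by decide +kernel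

theorem S_L : H476.VE.V1.S.L = 27 * V1.tab.toTab.L := by decide +kernel

theorem en_ok : H462.LK.enOk H476.VE.V1.S V1.tab.toTab 27 H476.VE.V1.P H476.VE.V1.Q
    H284.V1.e0 = true := by decide +kernel

/-- table and potentials -/
noncomputable def link : H208.Link V1.tab.toTab :=
  H208.Link.mk' V1.tab.toTab H476.VE.V1.S H476.VE.V1.A H476.VE.V1.ok mtch_ok L_pos S_L sym_ok
    H476.VE.V1.seg H476.VE.V1.len H284.V1.e0 en_ok

theorem rho_ok : H208.rhoOk H69.V1.GN.rn H69.V1.GN.rd = true := by decide +kernel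

theorem read_in : H208.readIn H69.V1.GN.rn H69.V1.GN.rd H284.V1.rad = true := by decide +kernel

theorem lv_sub : ∀ (g : Gp) (b : Fin 8), b ∈ H866.levR g → (b : ℕ) ∈ H284.lvA g := by
  intro g b
  cases g <;> fin_cases b <;> decide

/-- **the archimedean half from the literal pieces** -/
theorem stAF_of_lit {lit : List PP} (hlit : H69.V1.GN.allLit lit = true)
    (hl : ∀ q ∈ lit, q.Ok V1.tab.toTab.W) (c0 : ℕ) :
    StAF parA c0 (((41700000 : ℤ) : ℝ) / 10000) := by
  obtain ⟨X, hX⟩ := exists_X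
  obtain ⟨gu, ga, gc⟩ := GeoN.good_of_allLit hlit hl
  exact H208.stAF_join V1.tab.toTab link H69.V1.GN H69.V1.w rho_ok H69.V1.hw H69.V1.cu H69.V1.ca
    H69.V1.cc H69.V1.c1 H69.V1.c2 H69.V1.c3 gu ga gc (H336.frs1 hX) H352.discPk (H336.gpatV hX) rfl
    (fun _ _ _ _ h => h) (fun _ _ _ _ h => h) (fun _ _ _ h => h) H284.V1.rad read_in
    (H866.totRad H284.V1.rad) AR.Rc_det
    (H866.totRadR H284.V1.rad H284.V1.rad_ok)
    (fun g b h => lv_sub g b h) H284.V1.readOk H284.V1.val_ok

end Vale.Agent.P030.H265.V1F
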