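import Vale.Agent.P030.H265.Flat
import Vale.Agent.P030.H639.N8b

/-!
# P030, route N: zero patterns of the transitions between flat cells, on the closures (helper265)

For two flat cells the set where a transition entry does not vanish is empty (same half plane) or
contained in the closed strips over the intervals where the constant matrix has the entry.
-/

open Set Filter Topology Matrix
open scoped ComplexConjugate

namespace Vale.Agent.P030.H265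

open Vale.Agent.P030.AR Vale.Agent.P030.H580 Vale.Agent.P030.H639

noncomputable section

/-- the closed intervals in the `S`-line -/
def Kq : Fin 4 → Set ℝ := ![Icc 0 (1 / 2), Icc (1 / 2) 1, Ici 1, Iic 0]

theorem isClosed_Kq (q : Fin 4) : IsClosed (Kq q) := by
  fin_cases q
  · exact isClosed_Icc
  · exact isClosed_Icc
  · exact isClosed_Ici
  · exact isClosed_Iic

theorem Sq_sub_Kq {q : Fin 4} {z : ℂ} (h : z ∈ Sq q) : z.re ∈ Kq q := by
  have h' : (yz z).re ∈ Jv q := h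
  rw [yz_re] at h'
  fin_cases q
  · obtain ⟨h1, h2⟩ : 0 < 1 - 2 * z.re ∧ 1 - 2 * z.re < 1 := h'
    exact ⟨by linarith, by linarith⟩
  · obtain ⟨h1, h2⟩ : -1 < 1 - 2 * z.re ∧ 1 - 2 * z.re < 0 := h'
    exact ⟨by linarith, by linarith⟩
  · have h1 : 1 - 2 * z.re < -1 := h'
    change 1 ≤ z.re
    linarith
  · have h1 : 1 < 1 - 2 * z.re := h'
    change z.re ≤ 0
    linarith

theorem closure_Sq {q : Fin 4} {z : ℂ} (h : z ∈ closure (Sq q)) : z.re ∈ Kq q := by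
  have h1 : Sq q ⊆ Complex.re ⁻¹' (Kq q) := fun z hz => Sq_sub_Kq hz
  have h2 : IsClosed (Complex.re ⁻¹' (Kq q)) := (isClosed_Kq q).preimage Complex.continuous_re
  exact closure_minimal h1 h2 h

/-- a set of exceptional points of an up-low pair is contained in the closed strips of its
pattern -/
theorem pm_closure {D : Set ℂ} (hD : ∀ z ∈ D, z ∈ OmP ∧ conj z ∈ OmP) {pat : Fin 4 → Prop}
    (h0 : ∀ q, ¬ pat q → ∀ z ∈ D, z ∉ Sq q) {z : ℂ} (hz : z ∈ closure D) :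
    ∃ q, pat q ∧ z.re ∈ Kq q := by
  classical
  have h1 : D ⊆ ⋃ q : Fin 4, (if pat q then Sq q else ∅) := by
    intro x hx
    obtain ⟨q, hq⟩ := mem_both (hD x hx).1 (hD x hx).2
    have hp : pat q := by
      by_contra hp
      exact h0 q hp x hx hq
    exact mem_iUnion.2 ⟨q, by rw [if_pos hp]; exact hq⟩
  have h2 := closure_mono h1 hz
  rw [closure_iUnion_of_finite] at h2
  obtain ⟨q, hq⟩ := mem_iUnion.1 h2
  by_cases hp : pat q
  · rw [if_pos hp] at hq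
    exact ⟨q, hp, closure_Sq hq⟩
  · rw [if_neg hp, closure_empty] at hq
    exact absurd hq (notMem_empty z)

variable {X : Fin 8 → ℂ → Fin 8 → ℂ}

theorem Pm'_eq (z : ℂ) : Pm' X z = cj (Pz X (conj z)) := rfl

theorem kap_cj (B : Matrix (Fin 8) (Fin 8) ℂ) (z : ℂ) :
    kF (Pm' X z) (cj B 6 6) (cj B 6 7) = conj (kap X B (conj z)) := by
  rw [Pm'_eq, cj_apply, cj_apply]
  exact kF_cj _ _ _

theorem Pz_eq_mul (hX : YD X) {q : Fin 4} {z : ℂ} (hz : z ∈ Sq q) :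
    Pz X z = RqC q * Pm' X z := by
  ext i j
  rw [Pz_strip hX q hz i j, Matrix.mul_apply]

theorem Pm'_eq_mul (hX : YD X) {q : Fin 4} {z : ℂ} (hz : z ∈ Sq q) :
    Pm' X z = cj (RqC q) * Pz X z := by
  ext i j
  rw [Pm'_strip hX q hz i j, Matrix.mul_apply]
  rfl

/-- same half plane -/
theorem zero_pp (hX : YD X) {B B' M : Matrix (Fin 8) (Fin 8) ℂ} (hB' : Cst B')
    (hR : Rel B 1 B' M) {z : ℂ} (hz : z ∈ Uc X B) (hz' : z ∈ Uc X B') {b c : Fin 8}
    (h : Zr M B' b c) : (frm (Pz X z) B b ᵥ* (frm (Pz X z) B')⁻¹) c = 0 :=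
  trans_zero (Pz_adap hX hz'.1) hB' hR (by rw [Matrix.one_mul]) hz.2 hz'.2 h

/-- upper cell in the frame of a lower cell -/
theorem zero_pm (hX : YD X) {B B' M : Matrix (Fin 8) (Fin 8) ℂ} (hB' : Cst B') {q : Fin 4}
    (hR : Rel B (RqC q) (cj B') M) {z : ℂ} (hq : z ∈ Sq q) (hz : z ∈ Uc X B)
    (hz' : conj z ∈ Uc X B') {b c : Fin 8} (h : Zr M (cj B') b c) :
    (frm (Pz X z) B b ᵥ* (frm (Pm' X z) (cj B'))⁻¹) c = 0 := by
  refine trans_zero (Pm'_adap hX hz'.1) (cst_cj hB') hR (Pz_eq_mul hX hq) hz.2 ?_ h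
  rw [kap_cj]
  exact (map_ne_zero _).2 hz'.2

/-- lower cell in the frame of an upper cell -/
theorem zero_mp (hX : YD X) {B B' M : Matrix (Fin 8) (Fin 8) ℂ} (hB' : Cst B') {q : Fin 4}
    (hR : Rel (cj B) (cj (RqC q)) B' M) {z : ℂ} (hq : z ∈ Sq q) (hz : conj z ∈ Uc X B)
    (hz' : z ∈ Uc X B') {b c : Fin 8} (h : Zr M B' b c) :
    (frm (Pm' X z) (cj B) b ᵥ* (frm (Pz X z) B')⁻¹) c = 0 := by
  refine trans_zero (Pz_adap hX hz'.1) hB' hR (Pm'_eq_mul hX hq) ?_ hz'.2 h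
  rw [kap_cj]
  exact (map_ne_zero _).2 hz.2

/-- lower half plane -/
theorem zero_mm (hX : YD X) {B B' M : Matrix (Fin 8) (Fin 8) ℂ} (hB' : Cst B')
    (hR : Rel (cj B) 1 (cj B') M) {z : ℂ} (hz : conj z ∈ Uc X B) (hz' : conj z ∈ Uc X B')
    {b c : Fin 8} (h : Zr M (cj B') b c) :
    (frm (Pm' X z) (cj B) b ᵥ* (frm (Pm' X z) (cj B'))⁻¹) c = 0 := by
  refine trans_zero (Pm'_adap hX hz'.1) (cst_cj hB') hR (by rw [Matrix.one_mul]) ?_ ?_ h
  · rw [kap_cj]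
    exact (map_ne_zero _).2 hz.2
  · rw [kap_cj]
    exact (map_ne_zero _).2 hz'.2

/-- **closure, same half plane**: no exceptional points -/
theorem closure_pp (hX : YD X) {B B' M : Matrix (Fin 8) (Fin 8) ℂ} (hB' : Cst B')
    (hR : Rel B 1 B' M) {b c : Fin 8} {z : ℂ}
    (hz : z ∈ closure {z | z ∈ Uc X B ∧ z ∈ Uc X B' ∧
      (frm (Pz X z) B b ᵥ* (frm (Pz X z) B')⁻¹) c ≠ 0}) : ¬ Zr M B' b c := by
  intro h
  have : {z | z ∈ Uc X B ∧ z ∈ Uc X B' ∧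
      (frm (Pz X z) B b ᵥ* (frm (Pz X z) B')⁻¹) c ≠ 0} = ∅ := by
    ext x
    simp only [mem_ofPred_eq, mem_empty_iff_false, iff_false, not_and, not_not]
    exact fun h1 h2 => zero_pp hX hB' hR h1 h2 h
  rw [this, closure_empty] at hz
  exact absurd hz (notMem_empty z)

/-- **closure, up-low** -/
theorem closure_pm (hX : YD X) {B B' : Matrix (Fin 8) (Fin 8) ℂ} (hB' : Cst B')
    {M : Fin 4 → Matrix (Fin 8) (Fin 8) ℂ} (hR : ∀ q, Rel B (RqC q) (cj B') (M q))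
    {b c : Fin 8} {z : ℂ}
    (hz : z ∈ closure {z | z ∈ Uc X B ∧ conj z ∈ Uc X B' ∧
      (frm (Pz X z) B b ᵥ* (frm (Pm' X z) (cj B'))⁻¹) c ≠ 0}) :
    ∃ q, ¬ Zr (M q) (cj B') b c ∧ z.re ∈ Kq q := by
  refine pm_closure (pat := fun q => ¬ Zr (M q) (cj B') b c) (fun x hx => ⟨hx.1.1, hx.2.1.1⟩)
    (fun q hq x hx hxq => ?_) hz
  exact hx.2.2 (zero_pm hX hB' (hR q) hxq hx.1 hx.2.1 (not_not.1 hq))

/-- **closure, low-up** -/
theorem closure_mp (hX : YD X) {B B' : Matrix (Fin 8) (Fin 8) ℂ} (hB' : Cst B')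
    {M : Fin 4 → Matrix (Fin 8) (Fin 8) ℂ} (hR : ∀ q, Rel (cj B) (cj (RqC q)) B' (M q))
    {b c : Fin 8} {z : ℂ}
    (hz : z ∈ closure {z | conj z ∈ Uc X B ∧ z ∈ Uc X B' ∧
      (frm (Pm' X z) (cj B) b ᵥ* (frm (Pz X z) B')⁻¹) c ≠ 0}) :
    ∃ q, ¬ Zr (M q) B' b c ∧ z.re ∈ Kq q := by
  refine pm_closure (pat := fun q => ¬ Zr (M q) B' b c) (fun x hx => ⟨hx.2.1.1, hx.1.1⟩)
    (fun q hq x hx hxq => ?_) hz
  exact hx.2.2 (zero_mp hX hB' (hR q) hxq hx.1 hx.2.1 (not_not.1 hq))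

/-- **closure, lower half plane** -/
theorem closure_mm (hX : YD X) {B B' M : Matrix (Fin 8) (Fin 8) ℂ} (hB' : Cst B')
    (hR : Rel (cj B) 1 (cj B') M) {b c : Fin 8} {z : ℂ}
    (hz : z ∈ closure {z | conj z ∈ Uc X B ∧ conj z ∈ Uc X B' ∧
      (frm (Pm' X z) (cj B) b ᵥ* (frm (Pm' X z) (cj B'))⁻¹) c ≠ 0}) : ¬ Zr M (cj B') b c := by
  intro h
  have : {z | conj z ∈ Uc X B ∧ conj z ∈ Uc X B' ∧
      (frm (Pm' X z) (cj B) b ᵥ* (frm (Pm' X z) (cj B'))⁻¹) c ≠ 0} = ∅ := by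
    ext x
    simp only [mem_ofPred_eq, mem_empty_iff_false, iff_false, not_and, not_not]
    exact fun h1 h2 => zero_mm hX hB' hR h1 h2 h
  rw [this, closure_empty] at hz
  exact absurd hz (notMem_empty z)

/-! ### the mirror cells -/

theorem conj_preimage_open {U : Set ℂ} (h : IsOpen U) : IsOpen {z : ℂ | conj z ∈ U} :=
  h.preimage Complex.continuous_conj

theorem isOpen_Uc' (hX : YD X) (B : Matrix (Fin 8) (Fin 8) ℂ) :
    IsOpen {z : ℂ | conj z ∈ Uc X B} := conj_preimage_open (isOpen_Uc hX B)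

theorem frm_Pm' (B : Matrix (Fin 8) (Fin 8) ℂ) (z : ℂ) :
    frm (Pm' X z) (cj B) = cj (frm (Pz X (conj z)) B) := frm_cj _ _

theorem frm_diff' (hX : YD X) (B : Matrix (Fin 8) (Fin 8) ℂ) (b c : Fin 8) :
    DifferentiableOn ℂ (fun z => frm (Pm' X z) (cj B) b c) {z : ℂ | conj z ∈ Uc X B} := by
  intro z hz
  have h1 : DifferentiableAt ℂ (fun z => frm (Pz X z) B b c) (conj z) :=
    (frm_diff hX B b c).differentiableAt ((isOpen_Uc hX B).mem_nhds hz)
  have := h1.hasDerivAt.conj_conj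
  rw [Complex.conj_conj] at this
  simp only [frm_Pm', cj_apply]
  exact this.differentiableAt.differentiableWithinAt

end

end Vale.Agent.P030.H265
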